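import Vale.Agent.P200H.Defs

/-! Modules HSEQ (regSeq_succ), HSWP (regMod_swap), HRES (regSeq_restrict), HPER (regSeq_perm), HPC (perm_of_card5).
HSEQ: unfold; the set {j | j < castSucc k} is the image of {j | j < k}, {j | j < last} is the range of castSucc.
HSWP: (i) RegMod I g: let g p in I; by homogeneity of I and g we may assume p homogeneous; induct on its degree: p is in I + (f) by h2, so
p = i + f q with q homogeneous of degree (deg p) - a (take components); f (g q) in I so g q in I, so q in I by induction.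
(ii) RegMod (I + (g)) f: f p = i + g q; then g q in I + (f), so q = i1 + f r, f (p - g r) in I, so p - g r in I.
HRES: with I_k = (f_j : j < k): RegMod I_k l for all k <= c by downward induction (k = c is hreg; I_(k+1) = I_k + (f_k), use regMod_swap),
which also gives RegMod (I_k + (l)) f_k.  Then: s(f_k) q in (s(f_j) : j < k) implies f_k t(q) in I_k + (l) (kernel of s is (l)), so
t(q) in I_k + (l), so q = s(t(q)) in (s(f_j) : j < k).
HPER: adjacent transpositions generate (Equiv.Perm.mclosure_swap_castSucc_succ); for an adjacent swap use regMod_swap (a = b = 2). -/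

namespace Vale.Agent.P200E

open MvPolynomial

variable {K : Type*} [Field K]

theorem regSeq_succ {c N : ℕ} (f : Fin (c + 1) → MvPolynomial (Fin N) K) :
    IsRegSeqG f ↔ IsRegSeqG (fun i : Fin c => f i.castSucc) ∧
      RegMod (Ideal.span (Set.range fun i : Fin c => f i.castSucc)) (f (Fin.last c)) := by
  have h1 : ∀ k : Fin c, f '' {j | j < k.castSucc} = (fun i : Fin c => f i.castSucc) '' {j | j < k} := by
    intro k
    ext x
    constructor
    · rintro ⟨j, hj, rfl⟩
      have hj' : j < k.castSucc := hj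
      have hjl : j ≠ Fin.last c := by
        rintro rfl
        exact absurd (Fin.le_last k.castSucc) (not_le.2 hj')
      refine ⟨j.castPred hjl, ?_, ?_⟩
      · show j.castPred hjl < k
        rw [← Fin.castSucc_lt_castSucc_iff, Fin.castSucc_castPred]
        exact hj'
      · show f ((j.castPred hjl).castSucc) = f j
        rw [Fin.castSucc_castPred]
    · rintro ⟨j, hj, rfl⟩
      exact ⟨j.castSucc, Fin.castSucc_lt_castSucc_iff.2 hj, rfl⟩
  have h2 : f '' {j | j < Fin.last c} = Set.range fun i : Fin c => f i.castSucc := by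
    ext x
    constructor
    · rintro ⟨j, hj, rfl⟩
      have hjl : j ≠ Fin.last c := ne_of_lt hj
      exact ⟨j.castPred hjl, by show f ((j.castPred hjl).castSucc) = f j; rw [Fin.castSucc_castPred]⟩
    · rintro ⟨j, rfl⟩
      exact ⟨j.castSucc, Fin.castSucc_lt_last j, rfl⟩
  unfold IsRegSeqG RegMod
  rw [Fin.forall_fin_succ']
  simp only [h1, h2]

theorem HSWP_comp {n a : ℕ} {l : MvPolynomial (Fin n) K} (hl : l.IsHomogeneous a) (d : ℕ)
    (q : MvPolynomial (Fin n) K) :
    homogeneousComponent (d + a) (l * q) = l * homogeneousComponent d q := by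
  conv_lhs => rw [← sum_homogeneousComponent q, Finset.mul_sum, map_sum]
  have h : ∀ i, homogeneousComponent (d + a) (l * homogeneousComponent i q) =
      if i = d then l * homogeneousComponent d q else 0 := by
    intro i
    have h1 : (l * homogeneousComponent i q).IsHomogeneous (a + i) :=
      hl.mul (homogeneousComponent_isHomogeneous i q)
    rw [homogeneousComponent_of_mem (n := a + i) (by rwa [mem_homogeneousSubmodule])]
    by_cases hid : i = d
    · subst hid
      simp [add_comm]
    · rw [if_neg hid, if_neg (by omega)]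
  simp only [h]
  rw [Finset.sum_ite_eq']
  split_ifs with hd
  · rfl
  · rw [Finset.mem_range, not_lt] at hd
    rw [homogeneousComponent_eq_zero _ _ (by omega), mul_zero]

theorem HSWP_comp0 {n a : ℕ} {l : MvPolynomial (Fin n) K} (hl : l.IsHomogeneous a) {d : ℕ} (hd : d < a)
    (q : MvPolynomial (Fin n) K) : homogeneousComponent d (l * q) = 0 := by
  conv_lhs => rw [← sum_homogeneousComponent q, Finset.mul_sum, map_sum]
  refine Finset.sum_eq_zero fun i _ => ?_
  have h1 : (l * homogeneousComponent i q).IsHomogeneous (a + i) :=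
    hl.mul (homogeneousComponent_isHomogeneous i q)
  rw [homogeneousComponent_of_mem (n := a + i) (by rwa [mem_homogeneousSubmodule]), if_neg (by omega)]

theorem HSWP_split {n : ℕ} {I : Ideal (MvPolynomial (Fin n) K)} {f p : MvPolynomial (Fin n) K}
    (h : p ∈ I ⊔ Ideal.span {f}) : ∃ i ∈ I, ∃ q, p = i + f * q := by
  obtain ⟨i, hi, z, hz, rfl⟩ := Submodule.mem_sup.1 h
  obtain ⟨q, rfl⟩ := Ideal.mem_span_singleton'.1 hz
  exact ⟨i, hi, q, by rw [mul_comm f q]⟩

theorem HSWP_mem {n : ℕ} {I : Ideal (MvPolynomial (Fin n) K)} {f i : MvPolynomial (Fin n) K}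
    (h : i ∈ I) (q : MvPolynomial (Fin n) K) : i + f * q ∈ I ⊔ Ideal.span {f} := by
  refine Submodule.add_mem_sup h ?_
  exact Ideal.mul_mem_right _ _ (Ideal.subset_span rfl)

theorem regMod_swap {n : ℕ} {I : Ideal (MvPolynomial (Fin n) K)} (hI : IsHomog I) {f g : MvPolynomial (Fin n) K}
    {a b : ℕ} (ha : 0 < a) (hb : 0 < b) (hf : f.IsHomogeneous a) (hg : g.IsHomogeneous b) (h1 : RegMod I f)
    (h2 : RegMod (I ⊔ Ideal.span {f}) g) : RegMod I g ∧ RegMod (I ⊔ Ideal.span {g}) f := by
  constructor
  · have key : ∀ d, ∀ p : MvPolynomial (Fin n) K, p.IsHomogeneous d → g * p ∈ I → p ∈ I := by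
      intro d
      induction d using Nat.strong_induction_on with
      | _ d ih =>
        intro p hp hgp
        obtain ⟨i, hi, q, hq⟩ := HSWP_split (h2 p ((le_sup_left : I ≤ I ⊔ Ideal.span {f}) hgp))
        have hpc : homogeneousComponent d p = p := by
          rw [homogeneousComponent_of_mem (n := d) (by rwa [mem_homogeneousSubmodule]), if_pos rfl]
        have hpe : p = homogeneousComponent d i + homogeneousComponent d (f * q) := by
          rw [← map_add, ← hq, hpc]
        by_cases hda : d < a
        · rw [HSWP_comp0 hf hda, add_zero] at hpe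
          rw [hpe]
          exact hI i hi d
        · obtain ⟨e, rfl⟩ : ∃ e, d = e + a := ⟨d - a, by omega⟩
          rw [HSWP_comp hf] at hpe
          have h3 : f * (g * homogeneousComponent e q) ∈ I := by
            have h4 : f * (g * homogeneousComponent e q) =
                g * p - g * homogeneousComponent (e + a) i := by
              linear_combination (-g) * hpe
            rw [h4]
            exact I.sub_mem hgp (I.mul_mem_left _ (hI i hi _))
          have h5 := ih e (by omega) _ (homogeneousComponent_isHomogeneous e q) (h1 _ h3)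
          rw [hpe]
          exact I.add_mem (hI i hi _) (I.mul_mem_left _ h5)
    intro p hp
    rw [← sum_homogeneousComponent p]
    refine I.sum_mem fun d _ => key d _ (homogeneousComponent_isHomogeneous d p) ?_
    rw [← HSWP_comp hg]
    exact hI _ hp _
  · intro p hp
    obtain ⟨i, hi, q, hq⟩ := HSWP_split hp
    have h3 : g * q ∈ I ⊔ Ideal.span {f} := by
      have h4 : g * q = -i + f * p := by
        rw [hq]
        ring
      rw [h4]
      exact HSWP_mem (I.neg_mem hi) p
    obtain ⟨i1, hi1, r, hr⟩ := HSWP_split (h2 q h3)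
    have h5 : f * (p - g * r) ∈ I := by
      have h6 : f * (p - g * r) = i + g * i1 := by
        rw [mul_sub, hq, hr]
        ring
      rw [h6]
      exact I.add_mem hi (I.mul_mem_left _ hi1)
    have h7 := HSWP_mem (f := g) (h1 _ h5) r
    rwa [sub_add_cancel] at h7

attribute [local instance] MvPolynomial.gradedAlgebra in
theorem HRES_homog {c N : ℕ} (f : Fin c → MvPolynomial (Fin N) K) (hf : ∀ i, (f i).IsHomogeneous 2)
    (s : Set (Fin c)) : IsHomog (Ideal.span (f '' s)) := by
  have h : (Ideal.span (f '' s)).IsHomogeneous (homogeneousSubmodule (Fin N) K) :=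
    Ideal.homogeneous_span (homogeneousSubmodule (Fin N) K) (f '' s) (by
      rintro _ ⟨i, _, rfl⟩
      exact ⟨2, hf i⟩)
  intro p hp d
  exact (mem_iff_homogeneousComponent_mem h p).1 hp d

theorem HRES_succ {c N : ℕ} (f : Fin c → MvPolynomial (Fin N) K) (k : ℕ) (hk : k < c) :
    Ideal.span (f '' {j | (j : ℕ) < k + 1}) = Ideal.span (f '' {j | (j : ℕ) < k}) ⊔ Ideal.span {f ⟨k, hk⟩} := by
  rw [← Ideal.span_union]
  congr 1
  ext x
  constructor
  · rintro ⟨j, hj, rfl⟩
    have hj' : (j : ℕ) < k + 1 := hj
    rcases Nat.lt_succ_iff_lt_or_eq.mp hj' with h | h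
    · exact Or.inl ⟨j, h, rfl⟩
    · right
      have : j = ⟨k, hk⟩ := Fin.ext h
      rw [this]
      rfl
  · rintro (⟨j, hj, rfl⟩ | hx)
    · exact ⟨j, Nat.lt_succ_of_lt hj, rfl⟩
    · rw [Set.mem_singleton_iff] at hx
      rw [hx]
      exact ⟨⟨k, hk⟩, Nat.lt_succ_self k, rfl⟩

theorem HRES_reg {c N : ℕ} {f : Fin c → MvPolynomial (Fin N) K} (hr : IsRegSeqG f) (k : ℕ) (hk : k < c) :
    RegMod (Ideal.span (f '' {j | (j : ℕ) < k})) (f ⟨k, hk⟩) := by
  intro p hp
  have hset : {j : Fin c | j < (⟨k, hk⟩ : Fin c)} = {j : Fin c | (j : ℕ) < k} := by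
    ext j
    exact Fin.lt_def
  have h := hr ⟨k, hk⟩ p
  rw [hset] at h
  exact h hp

theorem HRES_down {c N : ℕ} {f : Fin c → MvPolynomial (Fin N) K} (hf : ∀ i, (f i).IsHomogeneous 2)
    (hr : IsRegSeqG f) {l : MvPolynomial (Fin N) K} (hl : l.IsHomogeneous 1)
    (hreg : RegMod (Ideal.span (Set.range f)) l) : ∀ m, m ≤ c →
      RegMod (Ideal.span (f '' {j | (j : ℕ) < c - m})) l := by
  intro m
  induction m with
  | zero =>
    intro _
    have : {j : Fin c | (j : ℕ) < c - 0} = Set.univ := by
      ext j
      have hj : (j : ℕ) < c - 0 := by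
        have := j.2
        omega
      exact ⟨fun _ => trivial, fun _ => hj⟩
    rw [this, Set.image_univ]
    exact hreg
  | succ m ih =>
    intro hm
    have h1 := ih (by omega)
    have hk : c - (m + 1) < c := by omega
    have e : c - m = c - (m + 1) + 1 := by omega
    rw [e, HRES_succ f _ hk] at h1
    exact (regMod_swap (HRES_homog f hf _) (by norm_num) (by norm_num) (hf ⟨_, hk⟩) hl (HRES_reg hr _ hk) h1).1

theorem regSeq_restrict {c N : ℕ} {f : Fin c → MvPolynomial (Fin (N + 1)) K} (hf : ∀ i, (f i).IsHomogeneous 2)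
    (hr : IsRegSeqG f) {l : MvPolynomial (Fin (N + 1)) K} (hl : l.IsHomogeneous 1)
    (hreg : RegMod (Ideal.span (Set.range f)) l) (σ : Sub l) : IsRegSeqG (fun i => σ.s (f i)) := by
  intro k p hp
  obtain ⟨k, hk⟩ := k
  have hset : {j : Fin c | j < (⟨k, hk⟩ : Fin c)} = {j : Fin c | (j : ℕ) < k} := by
    ext j
    exact Fin.lt_def
  rw [hset] at hp ⊢
  have himg : (fun i => σ.s (f i)) '' {j : Fin c | (j : ℕ) < k} = σ.s '' (f '' {j : Fin c | (j : ℕ) < k}) := by
    rw [Set.image_image]
  rw [himg] at hp ⊢
  have hmap : Ideal.span (σ.s '' (f '' {j : Fin c | (j : ℕ) < k})) =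
      (Ideal.span (f '' {j : Fin c | (j : ℕ) < k})).map σ.s := (Ideal.map_span _ _).symm
  rw [hmap] at hp ⊢
  have hsurj : Function.Surjective σ.s := fun q => ⟨σ.t q, σ.st q⟩
  have h1 : σ.s (f ⟨k, hk⟩) * p = σ.s (f ⟨k, hk⟩ * σ.t p) := by
    rw [map_mul, σ.st]
  have hp' : σ.s (f ⟨k, hk⟩ * σ.t p) ∈ (Ideal.span (f '' {j : Fin c | (j : ℕ) < k})).map σ.s := by
    rw [← h1]
    exact hp
  obtain ⟨x, hx, hxe⟩ := (Ideal.mem_map_iff_of_surjective σ.s hsurj).mp hp'
  have h2 : f ⟨k, hk⟩ * σ.t p - x ∈ Ideal.span {l} := by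
    rw [← σ.ker, map_sub, hxe, sub_self]
  have h3 : f ⟨k, hk⟩ * σ.t p ∈ Ideal.span (f '' {j : Fin c | (j : ℕ) < k}) ⊔ Ideal.span {l} := by
    have : f ⟨k, hk⟩ * σ.t p = x + (f ⟨k, hk⟩ * σ.t p - x) := by ring
    rw [this]
    exact Ideal.add_mem _ (Ideal.mem_sup_left hx) (Ideal.mem_sup_right h2)
  have h4 := HRES_down hf hr hl hreg (c - (k + 1)) (by omega)
  have e : c - (c - (k + 1)) = k + 1 := by omega
  rw [e, HRES_succ f _ hk] at h4
  have h5 := (regMod_swap (HRES_homog f hf _) (by norm_num) (by norm_num) (hf ⟨_, hk⟩) hl (HRES_reg hr _ hk) h4).2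
  have h6 := h5 _ h3
  have h7 : σ.s (σ.t p) ∈ (Ideal.span (f '' {j : Fin c | (j : ℕ) < k}) ⊔ Ideal.span {l}).map σ.s :=
    Ideal.mem_map_of_mem _ h6
  rw [σ.st, Ideal.map_sup, Ideal.map_span σ.s {l}, Set.image_singleton] at h7
  have h8 : σ.s l = 0 := (σ.ker l).mpr (Ideal.mem_span_singleton_self l)
  rw [h8, Ideal.span_singleton_zero, sup_bot_eq] at h7
  exact h7

attribute [local instance] MvPolynomial.gradedAlgebra in
private theorem HPER_homog {N : ℕ} (T : Set (MvPolynomial (Fin N) K))
    (hT : ∀ g ∈ T, g.IsHomogeneous 2) : IsHomog (Ideal.span T) := by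
  have h : (Ideal.span T).IsHomogeneous (homogeneousSubmodule (Fin N) K) :=
    Ideal.homogeneous_span (homogeneousSubmodule (Fin N) K) T (by
      intro g hg
      exact ⟨2, hT g hg⟩)
  intro p hp d
  exact (mem_iff_homogeneousComponent_mem h p).1 hp d

private theorem HPER_swap {c N : ℕ} (f : Fin (c + 1) → MvPolynomial (Fin N) K)
    (hf : ∀ i, (f i).IsHomogeneous 2) (hr : IsRegSeqG f) (i : Fin c) :
    IsRegSeqG (f ∘ (Equiv.swap i.castSucc i.succ : Equiv.Perm (Fin (c + 1)))) := by
  obtain ⟨A, hA⟩ : ∃ A : Set (Fin (c + 1)), A = {j | j < i.castSucc} := ⟨_, rfl⟩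
  have hval : (i.castSucc : Fin (c + 1)).val = i.val := rfl
  have hval' : (i.succ : Fin (c + 1)).val = i.val + 1 := rfl
  have hI0 : IsHomog (Ideal.span (f '' A)) := HPER_homog _ (by
    rintro _ ⟨j, _, rfl⟩
    exact hf j)
  have h1 : RegMod (Ideal.span (f '' A)) (f i.castSucc) := by
    intro p hp
    rw [hA] at hp ⊢
    exact hr i.castSucc p hp
  have hset : {j | j < i.succ} = insert i.castSucc A := by
    ext j
    rw [hA]
    simp only [Set.mem_setOf_eq, Set.mem_insert_iff, Fin.lt_def, Fin.ext_iff, hval, hval']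
    omega
  have h2 : RegMod (Ideal.span (f '' A) ⊔ Ideal.span {f i.castSucc}) (f i.succ) := by
    intro p hp
    have h5 := hr i.succ p
    rw [hset, Set.image_insert_eq, Ideal.span_insert, sup_comm] at h5
    exact h5 hp
  obtain ⟨h3, h4⟩ := regMod_swap hI0 two_pos two_pos (hf _) (hf _) h1 h2
  have hfix : ∀ j : Fin (c + 1), j ≠ i.castSucc → j ≠ i.succ →
      (f ∘ (Equiv.swap i.castSucc i.succ : Equiv.Perm (Fin (c + 1)))) j = f j := by
    intro j hj hj'
    show f (Equiv.swap i.castSucc i.succ j) = f j
    rw [Equiv.swap_apply_of_ne_of_ne hj hj']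
  have hAimg : (f ∘ (Equiv.swap i.castSucc i.succ : Equiv.Perm (Fin (c + 1)))) '' A = f '' A := by
    refine Set.image_congr fun j hj => ?_
    rw [hA] at hj
    have hj2 : j.val < i.val := hj
    refine hfix j (fun h => ?_) (fun h => ?_)
    · rw [Fin.ext_iff, hval] at h
      omega
    · rw [Fin.ext_iff, hval'] at h
      omega
  have hl : (f ∘ (Equiv.swap i.castSucc i.succ : Equiv.Perm (Fin (c + 1)))) i.castSucc = f i.succ := by
    show f (Equiv.swap i.castSucc i.succ i.castSucc) = f i.succ
    rw [Equiv.swap_apply_left]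
  have hr' : (f ∘ (Equiv.swap i.castSucc i.succ : Equiv.Perm (Fin (c + 1)))) i.succ = f i.castSucc := by
    show f (Equiv.swap i.castSucc i.succ i.succ) = f i.castSucc
    rw [Equiv.swap_apply_right]
  intro k p hp
  rcases lt_or_ge k.val i.val with hk | hk
  · have himg : (f ∘ (Equiv.swap i.castSucc i.succ : Equiv.Perm (Fin (c + 1)))) '' {j | j < k} =
        f '' {j | j < k} := by
      refine Set.image_congr fun j hj => ?_
      have hj2 : j.val < k.val := hj
      refine hfix j (fun h => ?_) (fun h => ?_)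
      · rw [Fin.ext_iff, hval] at h
        omega
      · rw [Fin.ext_iff, hval'] at h
        omega
    have hkk : (f ∘ (Equiv.swap i.castSucc i.succ : Equiv.Perm (Fin (c + 1)))) k = f k := by
      refine hfix k (fun h => ?_) (fun h => ?_)
      · rw [Fin.ext_iff, hval] at h
        omega
      · rw [Fin.ext_iff, hval'] at h
        omega
    rw [himg, hkk] at hp
    rw [himg]
    exact hr k p hp
  · rcases eq_or_lt_of_le hk with hk | hk
    · have hk' : k = i.castSucc := Fin.ext (by rw [hval]; exact hk.symm)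
      subst hk'
      rw [← hA, hAimg, hl] at hp
      rw [← hA, hAimg]
      exact h3 p hp
    · rcases eq_or_lt_of_le (Nat.succ_le_of_lt hk) with hk2 | hk2
      · have hk' : k = i.succ := Fin.ext (by rw [hval']; exact hk2.symm)
        subst hk'
        rw [hset, Set.image_insert_eq, hAimg, hl, Ideal.span_insert, sup_comm] at hp ⊢
        rw [hr'] at hp
        exact h4 p hp
      · have hk3 : i.val + 1 < k.val := hk2
        have himg : (f ∘ (Equiv.swap i.castSucc i.succ : Equiv.Perm (Fin (c + 1)))) '' {j | j < k} =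
            f '' {j | j < k} := by
          ext q
          constructor
          · rintro ⟨j, hj, rfl⟩
            have hj2 : j.val < k.val := hj
            by_cases h6 : j = i.castSucc
            · subst h6
              rw [hl]
              exact ⟨i.succ, hk3, rfl⟩
            · by_cases h7 : j = i.succ
              · subst h7
                rw [hr']
                exact ⟨i.castSucc, (by
                  show i.val < k.val
                  omega), rfl⟩
              · rw [hfix j h6 h7]
                exact ⟨j, hj, rfl⟩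
          · rintro ⟨j, hj, rfl⟩
            have hj2 : j.val < k.val := hj
            by_cases h6 : j = i.castSucc
            · subst h6
              exact ⟨i.succ, hk3, hr'⟩
            · by_cases h7 : j = i.succ
              · subst h7
                exact ⟨i.castSucc, (by
                  show i.val < k.val
                  omega), hl⟩
              · exact ⟨j, hj, hfix j h6 h7⟩
        have hkk : (f ∘ (Equiv.swap i.castSucc i.succ : Equiv.Perm (Fin (c + 1)))) k = f k := by
          refine hfix k (fun h => ?_) (fun h => ?_)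
          · rw [Fin.ext_iff, hval] at h
            omega
          · rw [Fin.ext_iff, hval'] at h
            omega
        rw [himg, hkk] at hp
        rw [himg]
        exact hr k p hp

theorem regSeq_perm {c N : ℕ} (f : Fin c → MvPolynomial (Fin N) K) (hf : ∀ i, (f i).IsHomogeneous 2)
    (hr : IsRegSeqG f) (e : Equiv.Perm (Fin c)) : IsRegSeqG (f ∘ e) := by
  cases c with
  | zero => exact fun k => k.elim0
  | succ c =>
    have he : e ∈ Submonoid.closure
        (Set.range fun i : Fin c => (Equiv.swap i.castSucc i.succ : Equiv.Perm (Fin (c + 1)))) := by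
      rw [Equiv.Perm.mclosure_swap_castSucc_succ]
      exact Submonoid.mem_top e
    have key : ∀ g : Fin (c + 1) → MvPolynomial (Fin N) K, (∀ i, (g i).IsHomogeneous 2) →
        IsRegSeqG g → IsRegSeqG (g ∘ e) := by
      induction he using Submonoid.closure_induction with
      | mem x hx =>
        obtain ⟨i, rfl⟩ := hx
        exact fun g hg hgr => HPER_swap g hg hgr i
      | one => exact fun g _ hgr => hgr
      | mul x y _ _ hx hy =>
        intro g hg hgr
        have h1 := hy (g ∘ x) (fun i => hg (x i)) (hx g hg hgr)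
        exact h1
    exact key f hf hr

theorem perm_of_card5 {n : ℕ} (s : Finset (Fin n)) (hs : s.card ≤ 5) :
    ∃ e : Equiv.Perm (Fin n), ∀ i : Fin n, 5 ≤ i.val → e i ∉ s := by
  have hsn : s.card ≤ n := by
    have := Finset.card_le_univ s
    simpa using this
  obtain ⟨t, ht, htc⟩ : ∃ t : Finset (Fin n), (∀ i : Fin n, 5 ≤ i.val → i ∉ t) ∧ t.card = s.card := by
    refine ⟨Finset.univ.filter fun i : Fin n => i.val < s.card, fun i hi hm => ?_, ?_⟩
    · have := (Finset.mem_filter.1 hm).2
      omega
    · rw [Fin.card_filter_val_lt]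
      omega
  let e := (Finset.equivOfCardEq htc : {x // x ∈ t} ≃ {x // x ∈ s})
  refine ⟨e.extendSubtype, fun i hi => ?_⟩
  exact e.extendSubtype_not_mem i (ht i hi)

end Vale.Agent.P200E
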