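import Vale.Agent.P200H.HFq
import Vale.Agent.P200H.Seq

/-! Modules HBOT (HF_bot), HCI (HF_CI5, from HF_exact2 with colonI I_k (f k) = I_k: h_(k+1)(d+2) = h_k(d+2) - h_k(d), h_(k+1)(d) = h_k(d) for d < 2;
h_0 = 1,5,15,35,70,126,210; h_1 = 1,5,14,30,55,91,140; h_2 = 1,5,13,25,41,61,85; h_3 = 1,5,12,20,28,36,44; h_4 = 1,5,11,15,16,16,16; h_5 = 1,5,10,10,5,1,0),
HZ (HF_zero_up, HF_top_of, homog_span). -/

namespace Vale.Agent.P200E

open MvPolynomial

variable {K : Type*} [Field K]

private theorem HBOT_card (n d : ℕ) :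
    Nat.card {s : Fin (n + 1) →₀ ℕ | s.degree = d} = (d + n).choose n := by
  have h1 : {s : Fin (n + 1) →₀ ℕ | s.degree = d} =
      ((Finset.univ.finsuppAntidiag d : Finset (Fin (n + 1) →₀ ℕ)) : Set (Fin (n + 1) →₀ ℕ)) := by
    ext s
    simp [Finset.mem_finsuppAntidiag, Finsupp.degree_eq_sum]
  rw [h1, Nat.card_coe_set_eq, Set.ncard_coe_finset, Finset.card_finsuppAntidiag_nat_eq_choose,
    Finset.card_univ, Fintype.card_fin, show n + 1 + d - 1 = d + n by omega]
  exact Nat.choose_symm_add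

private theorem HBOT_finrank (K : Type*) [Field K] (n d : ℕ) :
    Module.finrank K (homogeneousSubmodule (Fin (n + 1)) K d) = (d + n).choose n := by
  rw [homogeneousSubmodule_eq_finsupp_supported]
  rw [(AddMonoidAlgebra.supportedEquivFinsupp (R := K) (S := K)
    {s : Fin (n + 1) →₀ ℕ | s.degree = d}).finrank_eq]
  rw [← HBOT_card n d]
  have : Finite {s : Fin (n + 1) →₀ ℕ | s.degree = d} := by
    have h1 : {s : Fin (n + 1) →₀ ℕ | s.degree = d} =
        ((Finset.univ.finsuppAntidiag d : Finset (Fin (n + 1) →₀ ℕ)) : Set (Fin (n + 1) →₀ ℕ)) := by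
      ext s
      simp [Finset.mem_finsuppAntidiag, Finsupp.degree_eq_sum]
    rw [h1]
    infer_instance
  have := Fintype.ofFinite {s : Fin (n + 1) →₀ ℕ | s.degree = d}
  rw [Module.finrank_finsupp_self, Nat.card_eq_fintype_card]

theorem HF_bot (K : Type*) [Field K] (n d : ℕ) : HF (⊥ : Ideal (MvPolynomial (Fin (n + 1)) K)) d = (d + n).choose n := by
  unfold HF
  have hinj : Function.Injective (Ideal.Quotient.mkₐ K (⊥ : Ideal (MvPolynomial (Fin (n + 1)) K))).toLinearMap := by
    intro a b hab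
    have : Ideal.Quotient.mk (⊥ : Ideal (MvPolynomial (Fin (n + 1)) K)) a =
      Ideal.Quotient.mk (⊥ : Ideal (MvPolynomial (Fin (n + 1)) K)) b := hab
    rw [Ideal.Quotient.eq, Ideal.mem_bot, sub_eq_zero] at this
    exact this
  rw [← (Submodule.equivMapOfInjective _ hinj (homogeneousSubmodule (Fin (n + 1)) K d)).finrank_eq]
  exact HBOT_finrank K n d

attribute [local instance] MvPolynomial.gradedAlgebra in
theorem homog_span {n c : ℕ} (f : Fin c → MvPolynomial (Fin n) K) (hf : ∀ i, (f i).IsHomogeneous 2) :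
    IsHomog (Ideal.span (Set.range f)) := by
  have h : (Ideal.span (Set.range f)).IsHomogeneous (homogeneousSubmodule (Fin n) K) :=
    Ideal.homogeneous_span (homogeneousSubmodule (Fin n) K) (Set.range f) (by
      rintro _ ⟨i, rfl⟩
      exact ⟨2, hf i⟩)
  intro p hp d
  exact (mem_iff_homogeneousComponent_mem h p).1 hp d

theorem HCI_span {c N : ℕ} (f : Fin (c + 1) → MvPolynomial (Fin N) K) :
    Ideal.span (Set.range f) = Ideal.span (Set.range fun i : Fin c => f i.castSucc) ⊔
      Ideal.span {f (Fin.last c)} := by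
  rw [← Ideal.span_union]
  congr 1
  ext p
  constructor
  · rintro ⟨i, rfl⟩
    rcases Fin.eq_castSucc_or_eq_last i with ⟨j, rfl⟩ | rfl
    · exact Or.inl ⟨j, rfl⟩
    · exact Or.inr rfl
  · rintro (⟨j, rfl⟩ | h)
    · exact ⟨j.castSucc, rfl⟩
    · rw [Set.mem_singleton_iff] at h
      rw [h]
      exact ⟨Fin.last c, rfl⟩

theorem HCI_step {c N : ℕ} (f : Fin (c + 1) → MvPolynomial (Fin N) K)
    (hf : ∀ i, (f i).IsHomogeneous 2) (hr : IsRegSeqG f) :
    (∀ d, HF (Ideal.span (Set.range fun i : Fin c => f i.castSucc)) (d + 2) =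
      HF (Ideal.span (Set.range f)) (d + 2) +
      HF (Ideal.span (Set.range fun i : Fin c => f i.castSucc)) d) ∧
    ∀ d < 2, HF (Ideal.span (Set.range f)) d =
      HF (Ideal.span (Set.range fun i : Fin c => f i.castSucc)) d := by
  have hI := homog_span (fun i : Fin c => f i.castSucc) (fun i => hf _)
  have hreg := ((regSeq_succ f).mp hr).2
  have hcol : colonI (Ideal.span (Set.range fun i : Fin c => f i.castSucc)) (f (Fin.last c)) =
      Ideal.span (Set.range fun i : Fin c => f i.castSucc) := by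
    ext p
    rw [mem_colonI]
    exact ⟨fun h => hreg p h, fun h => Ideal.mul_mem_left _ _ h⟩
  refine ⟨fun d => ?_, fun d hd => ?_⟩
  · have h := HF_exact2 hI (hf (Fin.last c)) d
    rw [hcol, ← HCI_span] at h
    exact h
  · have h := HF_low2 hI (hf (Fin.last c)) hd
    rw [← HCI_span] at h
    exact h

theorem HF_CI5 (f : Fin 5 → MvPolynomial (Fin 5) K) (hf : ∀ i, (f i).IsHomogeneous 2) (hr : IsRegSeqG f) :
    HF (Ideal.span (Set.range f)) 0 = 1 ∧ HF (Ideal.span (Set.range f)) 1 = 5 ∧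
    HF (Ideal.span (Set.range f)) 2 = 10 ∧ HF (Ideal.span (Set.range f)) 3 = 10 ∧
    HF (Ideal.span (Set.range f)) 4 = 5 ∧ HF (Ideal.span (Set.range f)) 5 = 1 ∧
    HF (Ideal.span (Set.range f)) 6 = 0 := by
  have hr4 := ((regSeq_succ f).mp hr).1
  have hr3 := ((regSeq_succ _).mp hr4).1
  have hr2 := ((regSeq_succ _).mp hr3).1
  have hr1 := ((regSeq_succ _).mp hr2).1
  obtain ⟨a5, b5⟩ := HCI_step f hf hr
  obtain ⟨a4, b4⟩ := HCI_step _ (fun i => hf _) hr4
  obtain ⟨a3, b3⟩ := HCI_step _ (fun i => hf _) hr3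
  obtain ⟨a2, b2⟩ := HCI_step _ (fun i => hf _) hr2
  obtain ⟨a1, b1⟩ := HCI_step _ (fun i => hf _) hr1
  set I5 := Ideal.span (Set.range f)
  set I4 := Ideal.span (Set.range fun i : Fin 4 => f i.castSucc)
  set I3 := Ideal.span (Set.range fun i : Fin 3 => f i.castSucc.castSucc)
  set I2 := Ideal.span (Set.range fun i : Fin 2 => f i.castSucc.castSucc.castSucc)
  set I1 := Ideal.span (Set.range fun i : Fin 1 => f i.castSucc.castSucc.castSucc.castSucc)
  set I0 := Ideal.span (Set.range fun i : Fin 0 => f i.castSucc.castSucc.castSucc.castSucc.castSucc)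
    with hI0
  have h0 : I0 = ⊥ := by
    rw [hI0, Set.range_eq_empty, Ideal.span_empty]
  have c0 : ∀ d, HF I0 d = (d + 4).choose 4 := fun d => by
    rw [h0]
    exact HF_bot K 4 d
  have e0 : HF I0 0 = 1 := by rw [c0]; rfl
  have e1 : HF I0 1 = 5 := by rw [c0]; rfl
  have e2 : HF I0 2 = 15 := by rw [c0]; rfl
  have e3 : HF I0 3 = 35 := by rw [c0]; rfl
  have e4 : HF I0 4 = 70 := by rw [c0]; rfl
  have e5 : HF I0 5 = 126 := by rw [c0]; rfl
  have e6 : HF I0 6 = 210 := by rw [c0]; rfl
  have := a1 0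
  have := a1 1
  have := a1 2
  have := a1 3
  have := a1 4
  have := b1 0 (by norm_num)
  have := b1 1 (by norm_num)
  have := a2 0
  have := a2 1
  have := a2 2
  have := a2 3
  have := a2 4
  have := b2 0 (by norm_num)
  have := b2 1 (by norm_num)
  have := a3 0
  have := a3 1
  have := a3 2
  have := a3 3
  have := a3 4
  have := b3 0 (by norm_num)
  have := b3 1 (by norm_num)
  have := a4 0
  have := a4 1
  have := a4 2
  have := a4 3
  have := a4 4
  have := b4 0 (by norm_num)
  have := b4 1 (by norm_num)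
  have := a5 0
  have := a5 1
  have := a5 2
  have := a5 3
  have := a5 4
  have := b5 0 (by norm_num)
  have := b5 1 (by norm_num)
  simp only [Nat.zero_add, Nat.reduceAdd] at *
  omega

theorem HZ_finite {n : ℕ} (I : Ideal (MvPolynomial (Fin n) K)) (d : ℕ) :
    Module.Finite K ((homogeneousSubmodule (Fin n) K d).map (Ideal.Quotient.mkₐ K I).toLinearMap) :=
  Module.Finite.iff_fg.2 ((homogeneousSubmodule_fg (Fin n) K d).map _)

theorem HZ_iff {n : ℕ} (I : Ideal (MvPolynomial (Fin n) K)) (d : ℕ) :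
    HF I d = 0 ↔ ∀ p : MvPolynomial (Fin n) K, p.IsHomogeneous d → p ∈ I := by
  unfold HF
  have := HZ_finite I d
  rw [Submodule.finrank_eq_zero, eq_bot_iff]
  constructor
  · intro h p hp
    have h1 := h ⟨p, hp, rfl⟩
    rw [Submodule.mem_bot] at h1
    exact Ideal.Quotient.eq_zero_iff_mem.1 h1
  · rintro h x ⟨p, hp, rfl⟩
    rw [Submodule.mem_bot]
    exact Ideal.Quotient.eq_zero_iff_mem.2 (h p hp)

theorem HZ_succ {n : ℕ} (I : Ideal (MvPolynomial (Fin n) K)) {d : ℕ} (h : HF I d = 0) :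
    HF I (d + 1) = 0 := by
  rw [HZ_iff] at h ⊢
  intro p hp
  rw [p.as_sum]
  refine Ideal.sum_mem _ fun s hs => ?_
  have hdeg : s.degree = d + 1 := by
    have := hp (mem_support_iff.mp hs)
    rw [Finsupp.degree_eq_weight_one]
    exact this
  obtain ⟨i, hi⟩ : ∃ i, s i ≠ 0 := by
    by_contra hne
    push Not at hne
    have h0 : s = 0 := Finsupp.ext hne
    rw [h0] at hdeg
    simp at hdeg
  have hle : Finsupp.single i 1 ≤ s := by
    rw [Finsupp.single_le_iff]
    omega
  have hsub : s - Finsupp.single i 1 + Finsupp.single i 1 = s := tsub_add_cancel_of_le hle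
  have hdeg' : (s - Finsupp.single i 1).degree = d := by
    have h1 := congrArg Finsupp.degree hsub
    rw [map_add, hdeg, Finsupp.degree_single] at h1
    omega
  have h2 : monomial s (coeff s p) =
      monomial (Finsupp.single i 1) (1 : K) * monomial (s - Finsupp.single i 1) (coeff s p) := by
    rw [monomial_mul, one_mul, add_comm, hsub]
  rw [h2]
  exact Ideal.mul_mem_left _ _ (h _ (isHomogeneous_monomial _ hdeg'))

theorem HF_zero_up {n : ℕ} (I : Ideal (MvPolynomial (Fin n) K)) {d e : ℕ} (h : HF I d = 0) (hde : d ≤ e) : HF I e = 0 := by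
  induction e, hde using Nat.le_induction with
  | base => exact h
  | succ e _ ih => exact HZ_succ I ih

/-- zero Hilbert function = all forms of that degree are in I. -/
theorem HF_eq_zero_iff {n : ℕ} (I : Ideal (MvPolynomial (Fin n) K)) (d : ℕ) :
    HF I d = 0 ↔ ∀ p : MvPolynomial (Fin n) K, p.IsHomogeneous d → p ∈ I := HZ_iff I d

theorem HZ_fr {V W : Type*} [AddCommGroup V] [Module K V] [AddCommGroup W] [Module K W]
    (f : V →ₗ[K] W) (U : Submodule K V) [FiniteDimensional K U] :
    Module.finrank K (U.map f) + Module.finrank K (U ⊓ LinearMap.ker f : Submodule K V) =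
      Module.finrank K U := by
  have h := LinearMap.finrank_range_add_finrank_ker (f.domRestrict U)
  rw [LinearMap.range_domRestrict] at h
  have h2 : Module.finrank K (LinearMap.ker (f.domRestrict U)) =
      Module.finrank K (U ⊓ LinearMap.ker f : Submodule K V) := by
    have e : (LinearMap.ker (f.domRestrict U)).map U.subtype = U ⊓ LinearMap.ker f := by
      ext x
      constructor
      · rintro ⟨y, hy, rfl⟩
        exact ⟨y.2, hy⟩
      · rintro ⟨h1, h2⟩
        exact ⟨⟨x, h1⟩, h2, rfl⟩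
    rw [← e]
    exact (Submodule.equivMapOfInjective U.subtype U.injective_subtype _).finrank_eq
  rw [h2] at h
  exact h

theorem HZ_mk {n : ℕ} (I : Ideal (MvPolynomial (Fin n) K)) (p : MvPolynomial (Fin n) K) :
    p ∈ LinearMap.ker (Ideal.Quotient.mkₐ K I).toLinearMap ↔ p ∈ I := by
  rw [LinearMap.mem_ker]
  exact Ideal.Quotient.eq_zero_iff_mem

/-- if I and J have the same forms of degree d up to inclusion and equal dimension then they agree. -/
theorem HF_lt_exists {n : ℕ} {I J : Ideal (MvPolynomial (Fin n) K)} (hIJ : I ≤ J) {d : ℕ} (h : HF J d < HF I d) :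
    ∃ p : MvPolynomial (Fin n) K, p.IsHomogeneous d ∧ p ∈ J ∧ p ∉ I := by
  by_contra hcon
  push Not at hcon
  have : FiniteDimensional K (homogeneousSubmodule (Fin n) K d) :=
    Module.Finite.iff_fg.2 (homogeneousSubmodule_fg (Fin n) K d)
  have h1 := HZ_fr (Ideal.Quotient.mkₐ K I).toLinearMap (homogeneousSubmodule (Fin n) K d)
  have h2 := HZ_fr (Ideal.Quotient.mkₐ K J).toLinearMap (homogeneousSubmodule (Fin n) K d)
  have h3 : homogeneousSubmodule (Fin n) K d ⊓ LinearMap.ker (Ideal.Quotient.mkₐ K J).toLinearMap =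
      homogeneousSubmodule (Fin n) K d ⊓ LinearMap.ker (Ideal.Quotient.mkₐ K I).toLinearMap := by
    ext p
    simp only [Submodule.mem_inf, HZ_mk]
    exact ⟨fun h => ⟨h.1, hcon p h.1 h.2⟩, fun h => ⟨h.1, hIJ h.2⟩⟩
  rw [h3] at h2
  unfold HF at h
  omega

theorem HF_lt_of_mem {n : ℕ} {I J : Ideal (MvPolynomial (Fin n) K)} (hIJ : I ≤ J) {d : ℕ}
    {p : MvPolynomial (Fin n) K} (hp : p.IsHomogeneous d) (hpJ : p ∈ J) (hpI : p ∉ I) : HF J d < HF I d := by
  have : FiniteDimensional K (homogeneousSubmodule (Fin n) K d) :=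
    Module.Finite.iff_fg.2 (homogeneousSubmodule_fg (Fin n) K d)
  have h1 := HZ_fr (Ideal.Quotient.mkₐ K I).toLinearMap (homogeneousSubmodule (Fin n) K d)
  have h2 := HZ_fr (Ideal.Quotient.mkₐ K J).toLinearMap (homogeneousSubmodule (Fin n) K d)
  have : FiniteDimensional K (homogeneousSubmodule (Fin n) K d ⊓
      LinearMap.ker (Ideal.Quotient.mkₐ K J).toLinearMap : Submodule K (MvPolynomial (Fin n) K)) :=
    Submodule.finiteDimensional_inf_left _ _
  have h3 : homogeneousSubmodule (Fin n) K d ⊓ LinearMap.ker (Ideal.Quotient.mkₐ K I).toLinearMap <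
      homogeneousSubmodule (Fin n) K d ⊓ LinearMap.ker (Ideal.Quotient.mkₐ K J).toLinearMap := by
    refine lt_of_le_of_ne ?_ ?_
    · intro q hq
      simp only [Submodule.mem_inf, HZ_mk] at hq ⊢
      exact ⟨hq.1, hIJ hq.2⟩
    · intro he
      have h4 : p ∈ homogeneousSubmodule (Fin n) K d ⊓
          LinearMap.ker (Ideal.Quotient.mkₐ K J).toLinearMap := by
        simp only [Submodule.mem_inf, HZ_mk]
        exact ⟨hp, hpJ⟩
      rw [← he] at h4
      simp only [Submodule.mem_inf, HZ_mk] at h4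
      exact hpI h4.2
  have h5 := Submodule.finrank_lt_finrank_of_lt h3
  unfold HF
  omega

end Vale.Agent.P200E
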