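import Vale.Agent.P200G.Defs

/-! P200, at most five irreducible quadrics: auxiliary definitions (not used in the final statement). -/

namespace Vale.Agent.P200E

open MvPolynomial

/-- f is a nonzerodivisor modulo I. -/
def RegMod {K : Type*} [Field K] {n : ℕ} (I : Ideal (MvPolynomial (Fin n) K)) (f : MvPolynomial (Fin n) K) : Prop :=
  ∀ p, f * p ∈ I → p ∈ I

/-- the quadrics in I generate an ideal containing all forms of some degree. -/
def PrimI {K : Type*} [Field K] {n : ℕ} (I : Ideal (MvPolynomial (Fin n) K)) : Prop :=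
  ∃ D : ℕ, ∀ p : MvPolynomial (Fin n) K, p.IsHomogeneous D → p ∈ Ideal.span {q | q ∈ I ∧ q.IsHomogeneous 2}

/-- growth for all homogeneous ideals with PrimI. -/
def GrowP (K : Type*) [Field K] (n : ℕ) : Prop :=
  ∀ I : Ideal (MvPolynomial (Fin n) K), IsHomog I → PrimI I → ∀ d, G n d (HF I d) (HF I (d + 1))

/-- the linked ideal (F : I). -/
def colonJ {K : Type*} [Field K] {n : ℕ} (F I : Ideal (MvPolynomial (Fin n) K)) : Ideal (MvPolynomial (Fin n) K) where
  carrier := {p | ∀ q ∈ I, p * q ∈ F}
  add_mem' := by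
    intro a b ha hb q hq
    rw [add_mul]
    exact F.add_mem (ha q hq) (hb q hq)
  zero_mem' := by
    intro q _
    rw [zero_mul]
    exact F.zero_mem
  smul_mem' := by
    intro c x hx q hq
    rw [smul_eq_mul, mul_assoc]
    exact F.mul_mem_left c (hx q hq)

theorem mem_colonJ {K : Type*} [Field K] {n : ℕ} {F I : Ideal (MvPolynomial (Fin n) K)} {p : MvPolynomial (Fin n) K} :
    p ∈ colonJ F I ↔ ∀ q ∈ I, p * q ∈ F := Iff.rfl

end Vale.Agent.P200E
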