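import Vale.Agent.P200H.Soc
import Vale.Agent.P200H.CI

/-! Modules HLA (link_homog, link_a), HLB (link_b).  F = (f), A = S/F, A_n one-dimensional.
HLA: link_homog: colonJ F I is homogeneous (F, I homogeneous).  If u in S_d and u q in F for all q in I_e (d + e = n) then u in colonJ F I: for q in I homogeneous
of degree k: k <= e: all of S_(e-k) q u is in F so q u in F by soc_iter; k > e: degree of q u is > n, HF F n = 1 and HF F (n+1) = 0 (hypothesis h0)
so q u in F.  So S_d / D_d embeds in Hom(I_e / F_e, A_n), dim of I_e/F_e = HF F e - HF I e.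
HLB: q in I_e with q S_d in F is in F (soc_iter); so I_e/F_e embeds in Hom(S_d/D_d, A_n). -/

namespace Vale.Agent.P200E

open MvPolynomial

variable {K : Type*} [Field K] {n : ℕ}

private theorem hla_fr {V W : Type*} [AddCommGroup V] [Module K V] [AddCommGroup W] [Module K W]
    (f : V →ₗ[K] W) (U : Submodule K V) [FiniteDimensional K U] :
    Module.finrank K (U.map f) + Module.finrank K (U ⊓ LinearMap.ker f : Submodule K V) =
      Module.finrank K U := by
  have h := LinearMap.finrank_range_add_finrank_ker (f.domRestrict U)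
  rw [LinearMap.range_domRestrict] at h
  have h2 : Module.finrank K (LinearMap.ker (f.domRestrict U)) =
      Module.finrank K (U ⊓ LinearMap.ker f : Submodule K V) := by
    have e : (LinearMap.ker (f.domRestrict U)).map U.subtype = U ⊓ LinearMap.ker f := by
      ext x
      constructor
      · rintro ⟨y, hy, rfl⟩
        exact ⟨y.2, hy⟩
      · rintro ⟨h1, h2⟩
        exact ⟨⟨x, h1⟩, h2, rfl⟩
    rw [← e]
    exact (Submodule.equivMapOfInjective U.subtype U.injective_subtype _).finrank_eq
  rw [h2] at h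
  exact h

private theorem hla_fin (d : ℕ) : FiniteDimensional K (homogeneousSubmodule (Fin n) K d) :=
  Module.Finite.iff_fg.2 (homogeneousSubmodule_fg (Fin n) K d)

private theorem hla_mk (I : Ideal (MvPolynomial (Fin n) K)) (p : MvPolynomial (Fin n) K) :
    p ∈ LinearMap.ker (Ideal.Quotient.mkₐ K I).toLinearMap ↔ p ∈ I := by
  rw [LinearMap.mem_ker]
  exact Ideal.Quotient.eq_zero_iff_mem

private theorem hla_comp {q : MvPolynomial (Fin n) K} {k : ℕ} (hq : q.IsHomogeneous k) (d : ℕ)
    (p : MvPolynomial (Fin n) K) :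
    homogeneousComponent (d + k) (p * q) = homogeneousComponent d p * q := by
  conv_lhs => rw [← sum_homogeneousComponent p, Finset.sum_mul, map_sum]
  have h : ∀ i, homogeneousComponent (d + k) (homogeneousComponent i p * q) =
      if i = d then homogeneousComponent d p * q else 0 := by
    intro i
    have h1 : (homogeneousComponent i p * q).IsHomogeneous (i + k) :=
      (homogeneousComponent_isHomogeneous i p).mul hq
    rw [homogeneousComponent_of_mem (n := i + k) (by rwa [mem_homogeneousSubmodule])]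
    by_cases hid : i = d
    · subst hid
      simp
    · rw [if_neg hid, if_neg (by omega)]
  simp only [h]
  rw [Finset.sum_ite_eq']
  split_ifs with hd
  · rfl
  · rw [Finset.mem_range, not_lt] at hd
    rw [homogeneousComponent_eq_zero _ _ (by omega), zero_mul]

/-- membership in the linked ideal is decided by homogeneous elements -/
private theorem hla_mem {F I : Ideal (MvPolynomial (Fin n) K)} (hI : IsHomog I)
    {p : MvPolynomial (Fin n) K}
    (h : ∀ (k : ℕ), ∀ q ∈ I, q.IsHomogeneous k → p * q ∈ F) : p ∈ colonJ F I := by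
  intro q hq
  rw [← sum_homogeneousComponent q, Finset.mul_sum]
  exact F.sum_mem fun k _ => h k _ (hI q hq k) (homogeneousComponent_isHomogeneous k q)

private theorem hla_lam {V : Type*} [AddCommGroup V] [Module K V] (A : Submodule K V)
    (h : Module.finrank K A = 1) : ∃ lam : Module.Dual K V, ∀ x ∈ A, lam x = 0 → x = 0 := by
  obtain ⟨⟨x₀, hx₀m⟩, hx₀, hgen⟩ := finrank_eq_one_iff'.1 h
  have hx₀' : x₀ ≠ 0 := fun h => hx₀ (Subtype.ext h)
  obtain ⟨lam, hl⟩ : ∃ lam : Module.Dual K V, lam x₀ ≠ 0 := by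
    by_contra hcon
    push Not at hcon
    exact hx₀' ((Module.forall_dual_apply_eq_zero_iff K x₀).1 hcon)
  refine ⟨lam, fun x hx hx0 => ?_⟩
  obtain ⟨c, hc⟩ := hgen ⟨x, hx⟩
  have hc' : c • x₀ = x := congrArg Subtype.val hc
  rw [← hc', map_smul, smul_eq_mul] at hx0
  have hc0 : c = 0 := (mul_eq_zero.1 hx0).resolve_right hl
  rw [← hc', hc0, zero_smul]

theorem link_homog {F I : Ideal (MvPolynomial (Fin n) K)} (hF : IsHomog F) (hI : IsHomog I) :
    IsHomog (colonJ F I) := by
  intro p hp d
  refine hla_mem hI fun k q hq hqk => ?_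
  rw [← hla_comp hqk]
  exact hF _ (hp q hq) _

theorem link_a [Infinite K] (f : Fin n → MvPolynomial (Fin n) K) (hf : ∀ i, (f i).IsHomogeneous 2)
    (hr : IsRegSeqG f) (h1 : HF (Ideal.span (Set.range f)) n = 1) (h0 : HF (Ideal.span (Set.range f)) (n + 1) = 0)
    (I : Ideal (MvPolynomial (Fin n) K)) (hI : IsHomog I) (hfI : ∀ i, f i ∈ I) (d e : ℕ) (hde : d + e = n) :
    HF (colonJ (Ideal.span (Set.range f)) I) d + HF I e ≤ HF (Ideal.span (Set.range f)) e := by
  have hfd : FiniteDimensional K (homogeneousSubmodule (Fin n) K d) := hla_fin d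
  have hfe : FiniteDimensional K (homogeneousSubmodule (Fin n) K e) := hla_fin e
  set F := Ideal.span (Set.range f) with hF
  set D := colonJ F I with hD
  set Sd := homogeneousSubmodule (Fin n) K d with hSd
  set Se := homogeneousSubmodule (Fin n) K e with hSe
  set kF := LinearMap.ker (Ideal.Quotient.mkₐ K F).toLinearMap with hkF
  set kI := LinearMap.ker (Ideal.Quotient.mkₐ K I).toLinearMap with hkI
  have hFI : F ≤ I := by
    rw [hF, Ideal.span_le]
    rintro _ ⟨i, rfl⟩
    exact hfI i
  have ra := hla_fr (Ideal.Quotient.mkₐ K D).toLinearMap Sd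
  have rb := hla_fr (Ideal.Quotient.mkₐ K I).toLinearMap Se
  have rc := hla_fr (Ideal.Quotient.mkₐ K F).toLinearMap Se
  have rd := hla_fr (Ideal.Quotient.mkₐ K F).toLinearMap (Se ⊓ kI)
  have e1 : Se ⊓ kI ⊓ kF = Se ⊓ kF := by
    ext p
    simp only [Submodule.mem_inf, hkI, hkF, hla_mk]
    exact ⟨fun h => ⟨h.1.1, h.2⟩, fun h => ⟨⟨h.1, hFI h.2⟩, h.2⟩⟩
  rw [← hkF, e1] at rd
  set W := (Se ⊓ kI).map (Ideal.Quotient.mkₐ K F).toLinearMap with hW
  have hWfin : FiniteDimensional K W := Module.Finite.map _ _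
  -- a functional which is injective on the socle
  obtain ⟨lam, hlam⟩ : ∃ lam : Module.Dual K (MvPolynomial (Fin n) K ⧸ F),
      ∀ p : MvPolynomial (Fin n) K, p.IsHomogeneous n →
        lam (Ideal.Quotient.mkₐ K F p) = 0 → p ∈ F := by
    obtain ⟨lam, hl⟩ := hla_lam _ h1
    refine ⟨lam, fun p hp hp0 => ?_⟩
    have hpm : (Ideal.Quotient.mkₐ K F).toLinearMap p ∈
        (homogeneousSubmodule (Fin n) K n).map (Ideal.Quotient.mkₐ K F).toLinearMap :=
      Submodule.mem_map_of_mem ((mem_homogeneousSubmodule _ _).2 hp)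
    exact Ideal.Quotient.eq_zero_iff_mem.1 (hl _ hpm hp0)
  let Φ : MvPolynomial (Fin n) K →ₗ[K] Module.Dual K W :=
    { toFun := fun u => (lam.comp (LinearMap.mulLeft K (Ideal.Quotient.mkₐ K F u))).comp W.subtype
      map_add' := by
        intro a b
        ext w
        simp [add_mul]
      map_smul' := by
        intro c a
        ext w
        change lam ((Ideal.Quotient.mkₐ K F (c • a)) * (w : MvPolynomial (Fin n) K ⧸ F)) =
          c • lam ((Ideal.Quotient.mkₐ K F a) * (w : MvPolynomial (Fin n) K ⧸ F))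
        rw [map_smul, smul_mul_assoc, map_smul] }
  have re := hla_fr Φ Sd
  have hle1 : Module.finrank K (Sd.map Φ) ≤ Module.finrank K W := by
    refine (Submodule.finrank_le _).trans (le_of_eq ?_)
    exact Subspace.dual_finrank_eq
  have hker : Sd ⊓ LinearMap.ker Φ ≤ Sd ⊓ LinearMap.ker (Ideal.Quotient.mkₐ K D).toLinearMap := by
    rintro u ⟨hu1, hu2⟩
    refine ⟨hu1, (hla_mk D u).2 ?_⟩
    have hu1' : u.IsHomogeneous d := (mem_homogeneousSubmodule _ _).1 hu1
    have hue : ∀ q ∈ I, q.IsHomogeneous e → u * q ∈ F := by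
      intro q hq hqe
      refine hlam (u * q) (hde ▸ hu1'.mul hqe) ?_
      have hw : (Ideal.Quotient.mkₐ K F).toLinearMap q ∈ W :=
        Submodule.mem_map_of_mem ⟨(mem_homogeneousSubmodule _ _).2 hqe, (hla_mk I q).2 hq⟩
      have h2 : Φ u ⟨_, hw⟩ = 0 := by
        rw [LinearMap.mem_ker.1 hu2]
        rfl
      rw [map_mul]
      exact h2
    refine hla_mem hI fun k q hq hqk => ?_
    by_cases hke : k ≤ e
    · refine soc_iter f hf hr (e - k) (d + k) (by omega) (u * q) (hu1'.mul hqk) fun p hp => ?_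
      have h3 : p * (u * q) = u * (p * q) := by ring
      rw [h3]
      refine hue (p * q) (I.mul_mem_left p hq) ?_
      have := hp.mul hqk
      rwa [Nat.sub_add_cancel hke] at this
    · have h4 : HF F (d + k) = 0 := HF_zero_up F h0 (by omega)
      exact (HF_eq_zero_iff F (d + k)).1 h4 _ (hu1'.mul hqk)
  have hle2 : Module.finrank K (Sd ⊓ LinearMap.ker Φ : Submodule K _) ≤
      Module.finrank K (Sd ⊓ LinearMap.ker (Ideal.Quotient.mkₐ K D).toLinearMap : Submodule K _) :=
    Submodule.finrank_mono hker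
  have hDd : HF D d = Module.finrank K (Sd.map (Ideal.Quotient.mkₐ K D).toLinearMap) := rfl
  have hIe : HF I e = Module.finrank K (Se.map (Ideal.Quotient.mkₐ K I).toLinearMap) := rfl
  have hFe : HF F e = Module.finrank K (Se.map (Ideal.Quotient.mkₐ K F).toLinearMap) := rfl
  rw [hDd, hIe, hFe]
  rw [← hkI] at rb
  rw [← hkF] at rc
  omega

theorem HLB_fr {V W : Type*} [AddCommGroup V] [Module K V] [AddCommGroup W] [Module K W]
    (f : V →ₗ[K] W) (U : Submodule K V) [FiniteDimensional K U] :
    Module.finrank K (U.map f) + Module.finrank K (U ⊓ LinearMap.ker f : Submodule K V) =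
      Module.finrank K U := by
  have h := LinearMap.finrank_range_add_finrank_ker (f.domRestrict U)
  rw [LinearMap.range_domRestrict] at h
  have h2 : Module.finrank K (LinearMap.ker (f.domRestrict U)) =
      Module.finrank K (U ⊓ LinearMap.ker f : Submodule K V) := by
    have e : (LinearMap.ker (f.domRestrict U)).map U.subtype = U ⊓ LinearMap.ker f := by
      ext x
      constructor
      · rintro ⟨y, hy, rfl⟩
        exact ⟨y.2, hy⟩
      · rintro ⟨h1, h2⟩
        exact ⟨⟨x, h1⟩, h2, rfl⟩
    rw [← e]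
    exact (Submodule.equivMapOfInjective U.subtype U.injective_subtype _).finrank_eq
  rw [h2] at h
  exact h

theorem HLB_fin (d : ℕ) : FiniteDimensional K (homogeneousSubmodule (Fin n) K d) :=
  Module.Finite.iff_fg.2 (homogeneousSubmodule_fg (Fin n) K d)

theorem HLB_mk (I : Ideal (MvPolynomial (Fin n) K)) (p : MvPolynomial (Fin n) K) :
    p ∈ LinearMap.ker (Ideal.Quotient.mkₐ K I).toLinearMap ↔ p ∈ I := by
  rw [LinearMap.mem_ker]
  exact Ideal.Quotient.eq_zero_iff_mem

/-- the forms of degree d in J. -/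
noncomputable def HLB_comp (J : Ideal (MvPolynomial (Fin n) K)) (d : ℕ) : Submodule K (MvPolynomial (Fin n) K) :=
  homogeneousSubmodule (Fin n) K d ⊓ LinearMap.ker (Ideal.Quotient.mkₐ K J).toLinearMap

theorem HLB_mem {J : Ideal (MvPolynomial (Fin n) K)} {d : ℕ} {p : MvPolynomial (Fin n) K} :
    p ∈ HLB_comp J d ↔ p.IsHomogeneous d ∧ p ∈ J := by
  rw [HLB_comp, Submodule.mem_inf, HLB_mk]
  rfl

theorem HLB_HF (J : Ideal (MvPolynomial (Fin n) K)) (d : ℕ) :
    HF J d + Module.finrank K (HLB_comp J d) = Module.finrank K (homogeneousSubmodule (Fin n) K d) := by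
  have := HLB_fin (K := K) (n := n) d
  exact HLB_fr (Ideal.Quotient.mkₐ K J).toLinearMap (homogeneousSubmodule (Fin n) K d)

theorem HLB_functional (F : Ideal (MvPolynomial (Fin n) K)) (m : ℕ) (h1 : HF F m = 1) :
    ∃ φ : MvPolynomial (Fin n) K →ₗ[K] K, (∀ p ∈ F, φ p = 0) ∧
      ∀ p : MvPolynomial (Fin n) K, p.IsHomogeneous m → φ p = 0 → p ∈ F := by
  have hfin := HFA1_finite F m
  set W := (homogeneousSubmodule (Fin n) K m).map (Ideal.Quotient.mkₐ K F).toLinearMap with hW
  have h1' : Module.finrank K W = Module.finrank K K := by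
    rw [Module.finrank_self]
    exact h1
  let g : W ≃ₗ[K] K := LinearEquiv.ofFinrankEq W K h1'
  obtain ⟨ψ, hψ⟩ := LinearMap.exists_extend (g : W →ₗ[K] K)
  refine ⟨ψ.comp (Ideal.Quotient.mkₐ K F).toLinearMap, ?_, ?_⟩
  · intro p hp
    have : (Ideal.Quotient.mkₐ K F).toLinearMap p = 0 := (HLB_mk F p).mpr hp
    rw [LinearMap.comp_apply, this, map_zero]
  · intro p hp h0
    have hmem : (Ideal.Quotient.mkₐ K F).toLinearMap p ∈ W := ⟨p, hp, rfl⟩
    have h2 : ψ ((Ideal.Quotient.mkₐ K F).toLinearMap p) = g ⟨_, hmem⟩ := by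
      have := congrArg (fun f => f ⟨_, hmem⟩) hψ
      exact this
    rw [LinearMap.comp_apply, h2] at h0
    have h3 : (⟨_, hmem⟩ : W) = 0 := by
      apply g.injective
      rw [h0, map_zero]
    have h4 : (Ideal.Quotient.mkₐ K F).toLinearMap p = 0 := congrArg Subtype.val h3
    exact (HLB_mk F p).mp h4

theorem link_b [Infinite K] (f : Fin n → MvPolynomial (Fin n) K) (hf : ∀ i, (f i).IsHomogeneous 2)
    (hr : IsRegSeqG f) (h1 : HF (Ideal.span (Set.range f)) n = 1) (h0 : HF (Ideal.span (Set.range f)) (n + 1) = 0)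
    (I : Ideal (MvPolynomial (Fin n) K)) (hI : IsHomog I) (hfI : ∀ i, f i ∈ I) (d e : ℕ) (hde : d + e = n) :
    HF (Ideal.span (Set.range f)) e ≤ HF (colonJ (Ideal.span (Set.range f)) I) d + HF I e := by
  set F := Ideal.span (Set.range f) with hF
  have hFI : F ≤ I := by
    rw [hF, Ideal.span_le]
    rintro _ ⟨i, rfl⟩
    exact hfI i
  obtain ⟨φ, hφ1, hφ2⟩ := HLB_functional F n h1
  have hfd := HLB_fin (K := K) (n := n) d
  have hfe := HLB_fin (K := K) (n := n) e
  have hIfin : FiniteDimensional K (HLB_comp I e) :=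
    Submodule.finiteDimensional_of_le (inf_le_left : HLB_comp I e ≤ homogeneousSubmodule (Fin n) K e)
  let B : (HLB_comp I e) →ₗ[K] Module.Dual K (homogeneousSubmodule (Fin n) K d) :=
    ((LinearMap.mul K (MvPolynomial (Fin n) K)).compl₁₂ (HLB_comp I e).subtype
      (homogeneousSubmodule (Fin n) K d).subtype).compr₂ φ
  have hB : ∀ (q : HLB_comp I e) (u : homogeneousSubmodule (Fin n) K d),
      B q u = φ ((q : MvPolynomial (Fin n) K) * (u : MvPolynomial (Fin n) K)) := fun q u => rfl
  -- the kernel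
  have hker : (LinearMap.ker B).map (HLB_comp I e).subtype = HLB_comp F e := by
    ext x
    constructor
    · rintro ⟨q, hq, rfl⟩
      have hq' := HLB_mem.mp q.2
      refine HLB_mem.mpr ⟨hq'.1, ?_⟩
      have hq0 : B q = 0 := hq
      refine soc_iter f hf hr d e (by omega) _ hq'.1 ?_
      intro p hp
      have h5 : B q ⟨p, hp⟩ = 0 := by
        rw [hq0]
        rfl
      rw [hB] at h5
      have h6 := hφ2 _ (by
        have := IsHomogeneous.mul hq'.1 hp
        rw [show e + d = n by omega] at this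
        exact this) h5
      rw [mul_comm]
      exact h6
    · intro hx
      have hx' := HLB_mem.mp hx
      refine ⟨⟨x, HLB_mem.mpr ⟨hx'.1, hFI hx'.2⟩⟩, ?_, rfl⟩
      show B _ = 0
      ext u
      rw [hB]
      exact hφ1 _ (F.mul_mem_right _ hx'.2)
  have hker' : Module.finrank K (LinearMap.ker B) = Module.finrank K (HLB_comp F e) := by
    rw [← hker]
    exact (Submodule.equivMapOfInjective (HLB_comp I e).subtype (Submodule.injective_subtype _) _).finrank_eq
  -- the range
  set D' : Submodule K (homogeneousSubmodule (Fin n) K d) :=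
    (HLB_comp (colonJ F I) d).comap (homogeneousSubmodule (Fin n) K d).subtype with hD'
  have hD : Module.finrank K D' = Module.finrank K (HLB_comp (colonJ F I) d) := by
    have e1 : D'.map (homogeneousSubmodule (Fin n) K d).subtype = HLB_comp (colonJ F I) d := by
      ext x
      constructor
      · rintro ⟨y, hy, rfl⟩
        exact hy
      · intro hx
        exact ⟨⟨x, hx.1⟩, hx, rfl⟩
    rw [← e1]
    exact (Submodule.equivMapOfInjective (homogeneousSubmodule (Fin n) K d).subtype
      (Submodule.injective_subtype _) _).finrank_eq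
  have hrange : LinearMap.range B ≤ D'.dualAnnihilator := by
    rintro _ ⟨q, rfl⟩
    rw [Submodule.mem_dualAnnihilator]
    intro u hu
    rw [hB]
    have hu' : (u : MvPolynomial (Fin n) K) ∈ colonJ F I := (HLB_mem.mp hu).2
    apply hφ1
    rw [mul_comm]
    exact hu' _ (HLB_mem.mp q.2).2
  have hr1 : Module.finrank K (LinearMap.range B) ≤ Module.finrank K D'.dualAnnihilator :=
    Submodule.finrank_mono hrange
  have hr2 := Subspace.finrank_add_finrank_dualAnnihilator_eq D'
  have hr3 := LinearMap.finrank_range_add_finrank_ker B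
  have k1 := HLB_HF F e
  have k2 := HLB_HF I e
  have k3 := HLB_HF (colonJ F I) d
  rw [hker'] at hr3
  rw [hD] at hr2
  omega

end Vale.Agent.P200E
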