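import Vale.Agent.P200H.Nine
import Vale.Agent.P200H.Link

/-! P200H: growth for five quadrics in five variables (helper1). -/

namespace Vale.Agent.P200E

open MvPolynomial

variable {K : Type*} [Field K]

/-- I contains a product of two nonzero linear forms. -/
def HasProd {n : ℕ} (I : Ideal (MvPolynomial (Fin n) K)) : Prop :=
  ∃ l l' : MvPolynomial (Fin n) K, l.IsHomogeneous 1 ∧ l'.IsHomogeneous 1 ∧ l ≠ 0 ∧ l' ≠ 0 ∧ l * l' ∈ I

theorem grow5_prod [IsAlgClosed K] {I : Ideal (MvPolynomial (Fin 5) K)} (hI : IsHomog I) (hp : PrimI I)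
    (h : HasProd I) (d : ℕ) : G 5 d (HF I d) (HF I (d + 1)) := by
  obtain ⟨l, l', hl, hl', h0, h0', hll⟩ := h
  exact stepP (growP4 4 le_rfl) hI hp hl hl' h0 h0' hll d

theorem hasProd_of_one {I : Ideal (MvPolynomial (Fin 5) K)} (h : HF I 1 < 5) : HasProd I := by
  have hb : HF (⊥ : Ideal (MvPolynomial (Fin 5) K)) 1 = 5 := by
    rw [HF_bot K 4 1]; rfl
  obtain ⟨p, hp1, hpI, hp0⟩ := HF_lt_exists (bot_le : (⊥ : Ideal (MvPolynomial (Fin 5) K)) ≤ I) (d := 1)
    (by rw [hb]; exact h)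
  have hp0' : p ≠ 0 := fun h => hp0 (by rw [h]; exact Ideal.zero_mem _)
  exact ⟨p, p, hp1, hp1, hp0', hp0', I.mul_mem_left _ hpI⟩

theorem hasProd_of_zero {I : Ideal (MvPolynomial (Fin 5) K)} (h : HF I 0 = 0) : HasProd I := by
  have h1 : HF I 1 = 0 := HF_zero_up I h (Nat.zero_le 1)
  exact hasProd_of_one (by rw [h1]; norm_num)

theorem hasProd_of_two [IsAlgClosed K] {I : Ideal (MvPolynomial (Fin 5) K)} (h : HF I 2 ≤ 8) : HasProd I :=
  red_HF 5 (by norm_num) I (by simpa using h)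

theorem grow5_one [IsAlgClosed K] (f : Fin 5 → MvPolynomial (Fin 5) K) (hf : ∀ i, (f i).IsHomogeneous 2)
    (hr : IsRegSeqG f) (I : Ideal (MvPolynomial (Fin 5) K)) (hI : IsHomog I) (hfI : ∀ i, f i ∈ I) :
    HF I 2 ≤ (HF I 1).choose 2 := by
  by_cases h : HasProd I
  · exact G_one_le (grow5_prod hI (primI_of_regSeq f hf hr hfI) h 1)
  · have h1 : 5 ≤ HF I 1 := by
      by_contra hc
      exact h (hasProd_of_one (not_le.1 hc))
    have hspan : Ideal.span (Set.range f) ≤ I := by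
      rw [Ideal.span_le]
      rintro _ ⟨i, rfl⟩
      exact hfI i
    obtain ⟨-, h11, h12, -⟩ := HF_CI5 f hf hr
    have h1' : HF I 1 ≤ 5 := (HF_anti hspan 1).trans h11.le
    have h2' : HF I 2 ≤ 10 := (HF_anti hspan 2).trans h12.le
    have h5 : HF I 1 = 5 := le_antisymm h1' h1
    rw [h5]
    exact h2'

theorem grow5 [IsAlgClosed K] (f : Fin 5 → MvPolynomial (Fin 5) K) (hf : ∀ i, (f i).IsHomogeneous 2)
    (hr : IsRegSeqG f) (I : Ideal (MvPolynomial (Fin 5) K)) (hI : IsHomog I) (hfI : ∀ i, f i ∈ I) (d : ℕ) :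
    G 5 d (HF I d) (HF I (d + 1)) := by
  by_cases h : HasProd I
  · exact grow5_prod hI (primI_of_regSeq f hf hr hfI) h d
  have hspan : Ideal.span (Set.range f) ≤ I := by
    rw [Ideal.span_le]
    rintro _ ⟨i, rfl⟩
    exact hfI i
  obtain ⟨e0, e1, e2, e3, e4, e5, e6⟩ := HF_CI5 f hf hr
  obtain ⟨g0, g1, g2a, g2b, g3a, g3b, g3c, g3d, g4⟩ := G5_list
  have a1 : HF I 1 ≤ 5 := (HF_anti hspan 1).trans e1.le
  have a2 : HF I 2 ≤ 10 := (HF_anti hspan 2).trans e2.le
  have a3 : HF I 3 ≤ 10 := (HF_anti hspan 3).trans e3.le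
  have a4 : HF I 4 ≤ 5 := (HF_anti hspan 4).trans e4.le
  have a5 : HF I 5 ≤ 1 := (HF_anti hspan 5).trans e5.le
  have a6 : HF I 6 = 0 := Nat.le_zero.1 ((HF_anti hspan 6).trans e6.le)
  have b0 : 1 ≤ HF I 0 := by
    by_contra hc
    exact h (hasProd_of_zero (by omega))
  have b0' : HF I 0 ≤ 1 := HF_zero_le I
  have b1 : 5 ≤ HF I 1 := by
    by_contra hc
    exact h (hasProd_of_one (not_le.1 hc))
  have b2 : 9 ≤ HF I 2 := by
    by_contra hc
    exact h (hasProd_of_two (by omega))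
  have c0 : (5 : ℕ).choose 0 = 1 := rfl
  have c1 : (5 : ℕ).choose 1 = 5 := rfl
  have c2 : (5 : ℕ).choose 2 = 10 := rfl
  have c3 : (5 : ℕ).choose 3 = 10 := rfl
  have c4 : (5 : ℕ).choose 4 = 5 := rfl
  have c5 : (5 : ℕ).choose 5 = 1 := rfl
  by_cases hd5 : 5 ≤ d
  · have hz : HF I (d + 1) = 0 := HF_zero_up I a6 (by omega)
    rw [hz]
    refine G_zero ?_
    by_cases hd6 : 6 ≤ d
    · rw [HF_zero_up I a6 hd6]; exact Nat.zero_le _
    · have : d = 5 := by omega
      subst this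
      rw [c5]; exact a5
  have hd : d < 5 := not_le.1 hd5
  interval_cases d
  · exact G_mono g0 b0 (by rw [c0]; exact b0') a1
  · exact G_mono g1 b1 (by rw [c1]; exact a1) a2
  · by_cases h9 : HF I 2 ≤ 9
    · exact G_mono g2b b2 (by rw [c2]; exact a2) (nine f hf hr I hI hfI h9)
    · exact G_mono g2a (by omega) (by rw [c2]; exact a2) a3
  · have hD := link_homog (homog_span f hf) hI
    have hfD : ∀ i, f i ∈ colonJ (Ideal.span (Set.range f)) I := fun i => by
      rw [mem_colonJ]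
      intro q _
      exact Ideal.mul_mem_right _ _ (Ideal.subset_span ⟨i, rfl⟩)
    have k1 := link_a f hf hr e5 e6 I hI hfI 1 4 rfl
    have k2 := link_b f hf hr e5 e6 I hI hfI 2 3 rfl
    have k3 := grow5_one f hf hr _ hD hfD
    rw [e4] at k1
    rw [e3] at k2
    generalize HF (colonJ (Ideal.span (Set.range f)) I) 1 = x at k1 k3
    generalize HF (colonJ (Ideal.span (Set.range f)) I) 2 = y at k2 k3
    have hx : x ≤ 5 - HF I 4 := by omega
    have hy : y ≤ (5 - HF I 4).choose 2 := k3.trans (Nat.choose_le_choose 2 hx)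
    show G 5 3 (HF I 3) (HF I 4)
    generalize HF I 3 = b at k2 a3 ⊢
    generalize HF I 4 = b' at hy a4 ⊢
    have hc3 : b ≤ (5 : ℕ).choose 3 := by rw [c3]; exact a3
    interval_cases b'
    · exact G_zero hc3
    · have : y ≤ 6 := hy
      exact G_mono g3d (by omega) hc3 le_rfl
    · have : y ≤ 3 := hy
      exact G_mono g3c (by omega) hc3 le_rfl
    · have : y ≤ 1 := hy
      exact G_mono g3b (by omega) hc3 le_rfl
    · have : y ≤ 0 := hy
      exact G_mono g3a (by omega) hc3 (by norm_num)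
    · have : y ≤ 0 := hy
      exact G_mono g3a (by omega) hc3 le_rfl
  · by_cases h4 : HF I 4 ≤ 4
    · show G 5 4 (HF I 4) (HF I 5)
      rw [top5 f hf hr I hI hfI h4]
      exact G_zero (by rw [c4]; exact a4)
    · exact G_mono g4 (by omega) (by rw [c4]; exact a4) a5

end Vale.Agent.P200E
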