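import Vale.Agent.P200H.Defs
import Vale.Agent.P200E.HFa

/-! Module HFQ: quadric versions of HF_exact, homog_colon, HF_deg_zero of P200E/HFa.lean. -/

namespace Vale.Agent.P200E

open MvPolynomial

variable {K : Type*} [Field K] {n : ℕ}

private theorem HFQ_fr {V W : Type*} [AddCommGroup V] [Module K V] [AddCommGroup W] [Module K W]
    (f : V →ₗ[K] W) (U : Submodule K V) [FiniteDimensional K U] :
    Module.finrank K (U.map f) + Module.finrank K (U ⊓ LinearMap.ker f : Submodule K V) =
      Module.finrank K U := by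
  have h := LinearMap.finrank_range_add_finrank_ker (f.domRestrict U)
  rw [LinearMap.range_domRestrict] at h
  have h2 : Module.finrank K (LinearMap.ker (f.domRestrict U)) =
      Module.finrank K (U ⊓ LinearMap.ker f : Submodule K V) := by
    have e : (LinearMap.ker (f.domRestrict U)).map U.subtype = U ⊓ LinearMap.ker f := by
      ext x
      constructor
      · rintro ⟨y, hy, rfl⟩
        exact ⟨y.2, hy⟩
      · rintro ⟨h1, h2⟩
        exact ⟨⟨x, h1⟩, h2, rfl⟩
    rw [← e]
    exact (Submodule.equivMapOfInjective U.subtype U.injective_subtype _).finrank_eq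
  rw [h2] at h
  exact h

private theorem HFQ_fin (d : ℕ) : FiniteDimensional K (homogeneousSubmodule (Fin n) K d) := by
  exact Module.Finite.iff_fg.2 (homogeneousSubmodule_fg (Fin n) K d)

private theorem HFQ_comp {g : MvPolynomial (Fin n) K} (hg : g.IsHomogeneous 2) (d : ℕ)
    (q : MvPolynomial (Fin n) K) :
    homogeneousComponent (d + 2) (g * q) = g * homogeneousComponent d q := by
  conv_lhs => rw [← sum_homogeneousComponent q, Finset.mul_sum, map_sum]
  have h : ∀ i, homogeneousComponent (d + 2) (g * homogeneousComponent i q) =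
      if i = d then g * homogeneousComponent d q else 0 := by
    intro i
    have h1 : (g * homogeneousComponent i q).IsHomogeneous (2 + i) :=
      hg.mul (homogeneousComponent_isHomogeneous i q)
    rw [homogeneousComponent_of_mem (n := 2 + i) (by rwa [mem_homogeneousSubmodule])]
    by_cases hid : i = d
    · subst hid
      rw [if_pos (by omega), if_pos rfl]
    · rw [if_neg hid, if_neg (by omega)]
  simp only [h]
  rw [Finset.sum_ite_eq']
  split_ifs with hd
  · rfl
  · rw [Finset.mem_range, not_lt] at hd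
    rw [homogeneousComponent_eq_zero _ _ (by omega), mul_zero]

private theorem HFQ_comp0 {g : MvPolynomial (Fin n) K} (hg : g.IsHomogeneous 2) {d : ℕ} (hd : d < 2)
    (q : MvPolynomial (Fin n) K) : homogeneousComponent d (g * q) = 0 := by
  conv_lhs => rw [← sum_homogeneousComponent q, Finset.mul_sum, map_sum]
  refine Finset.sum_eq_zero fun i _ => ?_
  have h1 : (g * homogeneousComponent i q).IsHomogeneous (2 + i) :=
    hg.mul (homogeneousComponent_isHomogeneous i q)
  rw [homogeneousComponent_of_mem (n := 2 + i) (by rwa [mem_homogeneousSubmodule]),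
    if_neg (by omega)]

private theorem HFQ_mk (I : Ideal (MvPolynomial (Fin n) K)) (p : MvPolynomial (Fin n) K) :
    p ∈ LinearMap.ker (Ideal.Quotient.mkₐ K I).toLinearMap ↔ p ∈ I := by
  rw [LinearMap.mem_ker]
  exact Ideal.Quotient.eq_zero_iff_mem

theorem homog_colon2 {I : Ideal (MvPolynomial (Fin n) K)} (hI : IsHomog I) {g : MvPolynomial (Fin n) K}
    (hg : g.IsHomogeneous 2) : IsHomog (colonI I g) := by
  intro p hp d
  rw [mem_colonI] at hp ⊢
  rw [← HFQ_comp hg]
  exact hI _ hp _

theorem HF_exact2 {I : Ideal (MvPolynomial (Fin n) K)} (hI : IsHomog I) {g : MvPolynomial (Fin n) K}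
    (hg : g.IsHomogeneous 2) (d : ℕ) :
    HF I (d + 2) = HF (I ⊔ Ideal.span {g}) (d + 2) + HF (colonI I g) d := by
  have h0 : FiniteDimensional K (homogeneousSubmodule (Fin n) K d) := HFQ_fin d
  have h1 : FiniteDimensional K (homogeneousSubmodule (Fin n) K (d + 2)) := HFQ_fin (d + 2)
  set S₀ := homogeneousSubmodule (Fin n) K d with hS₀
  set S₁ := homogeneousSubmodule (Fin n) K (d + 2) with hS₁
  set J := I ⊔ Ideal.span {g} with hJ
  set kI := LinearMap.ker (Ideal.Quotient.mkₐ K I).toLinearMap with hkI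
  set kJ := LinearMap.ker (Ideal.Quotient.mkₐ K J).toLinearMap with hkJ
  set ml : MvPolynomial (Fin n) K →ₗ[K] MvPolynomial (Fin n) K := LinearMap.mulLeft K g with hml
  have ha := HFQ_fr (Ideal.Quotient.mkₐ K I).toLinearMap S₁
  have hb := HFQ_fr (Ideal.Quotient.mkₐ K J).toLinearMap S₁
  have hc := HFQ_fr (Ideal.Quotient.mkₐ K I).toLinearMap (S₁ ⊓ kJ)
  have hd := HFQ_fr (Ideal.Quotient.mkₐ K (colonI I g)).toLinearMap S₀
  have he := HFQ_fr ((Ideal.Quotient.mkₐ K I).toLinearMap.comp ml) S₀
  have e1 : S₁ ⊓ kJ ⊓ kI = S₁ ⊓ kI := by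
    ext p
    simp only [Submodule.mem_inf, hkI, hkJ, HFQ_mk]
    exact ⟨fun h => ⟨h.1.1, h.2⟩, fun h => ⟨⟨h.1, Ideal.mem_sup_left h.2⟩, h.2⟩⟩
  have e2 : LinearMap.ker (Ideal.Quotient.mkₐ K (colonI I g)).toLinearMap =
      LinearMap.ker ((Ideal.Quotient.mkₐ K I).toLinearMap.comp ml) := by
    ext p
    rw [HFQ_mk, mem_colonI, ← HFQ_mk I (g * p)]
    rfl
  have e3 : (S₁ ⊓ kJ).map (Ideal.Quotient.mkₐ K I).toLinearMap =
      S₀.map ((Ideal.Quotient.mkₐ K I).toLinearMap.comp ml) := by
    ext x
    constructor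
    · rintro ⟨p, ⟨hp1, hp2⟩, rfl⟩
      have hp3 : p ∈ J := (HFQ_mk J p).1 hp2
      obtain ⟨a, ha', b, hb', hab⟩ := Submodule.mem_sup.1 hp3
      obtain ⟨q, rfl⟩ := Ideal.mem_span_singleton.1 hb'
      refine ⟨homogeneousComponent d q, homogeneousComponent_mem d q, ?_⟩
      have hp4 : p = homogeneousComponent (d + 2) a + g * homogeneousComponent d q := by
        rw [← HFQ_comp hg, ← map_add, hab]
        exact (homogeneousComponent_eq_self hp1).symm
      have h5 : (Ideal.Quotient.mkₐ K I) p =
          (Ideal.Quotient.mkₐ K I) (g * homogeneousComponent d q) := by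
        refine (Ideal.Quotient.mk_eq_mk_iff_sub_mem _ _).2 ?_
        have h6 : p - g * homogeneousComponent d q = homogeneousComponent (d + 2) a :=
          sub_eq_iff_eq_add.2 hp4
        rw [h6]
        exact hI a ha' _
      exact h5.symm
    · rintro ⟨q, hq, rfl⟩
      refine ⟨g * q, ⟨?_, ?_⟩, rfl⟩
      · have : (g * q).IsHomogeneous (2 + d) := hg.mul hq
        rw [add_comm] at this
        exact this
      · exact (HFQ_mk J _).2 (Ideal.mul_mem_right _ _
          (Ideal.mem_sup_right (Ideal.mem_span_singleton_self g)))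
  rw [e1, e3] at hc
  rw [e2] at hd
  unfold HF
  rw [hkI, hkJ] at hc
  rw [← hS₀, ← hS₁]
  omega

theorem HF_low2 {I : Ideal (MvPolynomial (Fin n) K)} (hI : IsHomog I) {g : MvPolynomial (Fin n) K}
    (hg : g.IsHomogeneous 2) {d : ℕ} (hd : d < 2) : HF (I ⊔ Ideal.span {g}) d = HF I d := by
  have h0 : FiniteDimensional K (homogeneousSubmodule (Fin n) K d) := HFQ_fin d
  have ha := HFQ_fr (Ideal.Quotient.mkₐ K I).toLinearMap (homogeneousSubmodule (Fin n) K d)
  have hb := HFQ_fr (Ideal.Quotient.mkₐ K (I ⊔ Ideal.span {g})).toLinearMap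
    (homogeneousSubmodule (Fin n) K d)
  have e1 : homogeneousSubmodule (Fin n) K d ⊓
      LinearMap.ker (Ideal.Quotient.mkₐ K (I ⊔ Ideal.span {g})).toLinearMap =
      homogeneousSubmodule (Fin n) K d ⊓ LinearMap.ker (Ideal.Quotient.mkₐ K I).toLinearMap := by
    ext p
    simp only [Submodule.mem_inf, HFQ_mk]
    constructor
    · rintro ⟨hp1, hp2⟩
      refine ⟨hp1, ?_⟩
      obtain ⟨a, ha', b, hb', hab⟩ := Submodule.mem_sup.1 hp2
      obtain ⟨q, rfl⟩ := Ideal.mem_span_singleton.1 hb'
      have h1 : p = homogeneousComponent d a := by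
        have h2 : homogeneousComponent d p = homogeneousComponent d a := by
          rw [← hab, map_add, HFQ_comp0 hg hd, add_zero]
        rw [← h2]
        exact (homogeneousComponent_eq_self hp1).symm
      rw [h1]
      exact hI a ha' d
    · rintro ⟨hp1, hp2⟩
      exact ⟨hp1, Ideal.mem_sup_left hp2⟩
  rw [e1] at hb
  unfold HF
  omega

end Vale.Agent.P200E
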