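import Vale.Agent.P200H.Defs
import Vale.Agent.P200G.GA

/-! Module HLIN: S/I has finitely many associated primes (associatedPrimes.finite, Noetherian), their union is the set of zero divisors
(biUnion_associatedPrimes_eq_compl_regular / _zero_divisors).  Each associated prime P = ann(u), u not in I, does not contain all X i (hsoc).  Apply
exists_linear_notMem (P200G/GA.lean) to their preimages in S. -/

namespace Vale.Agent.P200E

open MvPolynomial

theorem exists_linear_reg {K : Type*} [Field K] [Infinite K] {N : ℕ} (I : Ideal (MvPolynomial (Fin (N + 1)) K))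
    (hsoc : ∀ u, (∀ i, X i * u ∈ I) → u ∈ I) :
    ∃ l : MvPolynomial (Fin (N + 1)) K, l.IsHomogeneous 1 ∧ l ≠ 0 ∧ RegMod I l := by
  obtain ⟨l, h1, h2, h3⟩ := exists_linear_notMem
    (associatedPrimes (MvPolynomial (Fin (N + 1)) K) (MvPolynomial (Fin (N + 1)) K ⧸ I))
    (associatedPrimes.finite (MvPolynomial (Fin (N + 1)) K) (MvPolynomial (Fin (N + 1)) K ⧸ I)) (by
      intro P hP
      rw [AssociatedPrimes.mem_iff, isAssociatedPrime_iff] at hP
      obtain ⟨hPp, x, hx⟩ := hP
      by_contra hcon
      push Not at hcon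
      obtain ⟨u, rfl⟩ := Ideal.Quotient.mk_surjective x
      have hu : u ∈ I := by
        refine hsoc u fun i => ?_
        have h := hcon i
        rw [hx, Submodule.mem_colon_singleton, Submodule.mem_bot] at h
        have h' : Ideal.Quotient.mk I (X i * u) = 0 := h
        exact Ideal.Quotient.eq_zero_iff_mem.1 h'
      rw [Ideal.Quotient.eq_zero_iff_mem.2 hu] at hx
      refine hPp.ne_top ?_
      rw [hx, Ideal.eq_top_iff_one, Submodule.mem_colon_singleton, smul_zero]
      exact Submodule.zero_mem _)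
  refine ⟨l, h1, h2, fun p hp => ?_⟩
  by_contra hpI
  have hl : l ∈ ⋃ P ∈ associatedPrimes (MvPolynomial (Fin (N + 1)) K)
      (MvPolynomial (Fin (N + 1)) K ⧸ I), (P : Set (MvPolynomial (Fin (N + 1)) K)) := by
    rw [biUnion_associatedPrimes_eq_zero_divisors]
    refine ⟨Ideal.Quotient.mk I p, fun h => hpI (Ideal.Quotient.eq_zero_iff_mem.1 h), ?_⟩
    have h' : Ideal.Quotient.mk I (l * p) = 0 := Ideal.Quotient.eq_zero_iff_mem.2 hp
    exact h'
  obtain ⟨P, hP, hlP⟩ := Set.mem_iUnion₂.1 hl
  exact h3 P hP hlP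

end Vale.Agent.P200E
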