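import Vale.Agent.P200H.Grow5
import Vale.Agent.P200G.Ind

/-! P200H: induction on the number of variables and assembly, at most five irreducible quadrics (helper1). -/

namespace Vale.Agent.P200E

open MvPolynomial

variable {K : Type*} [Field K]

/-- statement of the induction, n quadrics in n variables. -/
def GrowR (K : Type*) [Field K] (n : ℕ) : Prop :=
  ∀ (f : Fin n → MvPolynomial (Fin n) K), (∀ i, (f i).IsHomogeneous 2) → IsRegSeqG f →
    (∀ i, 5 ≤ i.val → Splits2 (f i)) → ∀ I : Ideal (MvPolynomial (Fin n) K), IsHomog I → (∀ i, f i ∈ I) →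
    ∀ d, G n d (HF I d) (HF I (d + 1))

theorem regMod_left {n : ℕ} {I : Ideal (MvPolynomial (Fin n) K)} {a b : MvPolynomial (Fin n) K}
    (h : RegMod I (a * b)) : RegMod I a := fun p hp => by
  refine h p ?_
  rw [mul_comm a b, mul_assoc]
  exact I.mul_mem_left b hp

theorem regMod_right {n : ℕ} {I : Ideal (MvPolynomial (Fin n) K)} {a b : MvPolynomial (Fin n) K}
    (h : RegMod I (a * b)) : RegMod I b := regMod_left (by rwa [mul_comm] at h)

/-- one of the two orders -/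
theorem main5_aux {n : ℕ} (IH : GrowR K n) {f : Fin (n + 1) → MvPolynomial (Fin (n + 1)) K}
    (hf : ∀ i, (f i).IsHomogeneous 2) (hr : IsRegSeqG (fun i : Fin n => f i.castSucc))
    (hs : ∀ i : Fin n, 5 ≤ i.val → Splits2 (f i.castSucc))
    {l l' : MvPolynomial (Fin (n + 1)) K} (hl : l.IsHomogeneous 1) (hl' : l'.IsHomogeneous 1)
    (h0 : l ≠ 0) (h0' : l' ≠ 0)
    (hrl : RegMod (Ideal.span (Set.range fun i : Fin n => f i.castSucc)) l)
    (hrl' : RegMod (Ideal.span (Set.range fun i : Fin n => f i.castSucc)) l')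
    {I : Ideal (MvPolynomial (Fin (n + 1)) K)} (hI : IsHomog I) (hfI : ∀ i, f i ∈ I) (hll : l * l' ∈ I) (d : ℕ)
    (hsw : HF (I ⊔ Ideal.span {l'}) d ≤ HF (I ⊔ Ideal.span {l}) d) :
    G (n + 1) d (HF I d) (HF I (d + 1)) := by
  obtain ⟨σ⟩ := exists_sub l hl h0
  obtain ⟨τ⟩ := exists_sub l' hl' h0'
  have hsplit : ∀ {m : MvPolynomial (Fin (n + 1)) K} (ρ : Sub m) (i : Fin n), 5 ≤ i.val →
      Splits2 (ρ.s (f i.castSucc)) := fun ρ i hi => by
    obtain ⟨a, b, ha, hb, hab⟩ := hs i hi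
    exact ⟨ρ.s a, ρ.s b, ρ.hs _ _ ha, ρ.hs _ _ hb, by rw [hab, map_mul]⟩
  have hGB : ∀ e, G n e (HF (I.map σ.s) e) (HF (I.map σ.s) (e + 1)) :=
    IH _ (fun i => σ.hs _ _ (hf i.castSucc)) (regSeq_restrict (fun i => hf i.castSucc) hr hl hrl σ)
      (hsplit σ) _ (homog_map_sub σ hI) (fun i => Ideal.mem_map_of_mem _ (hfI _))
  have hGC : ∀ e, G n e (HF ((colonI I l).map τ.s) e) (HF ((colonI I l).map τ.s) (e + 1)) :=
    IH _ (fun i => τ.hs _ _ (hf i.castSucc)) (regSeq_restrict (fun i => hf i.castSucc) hr hl' hrl' τ)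
      (hsplit τ) _ (homog_map_sub τ (homog_colon hI hl))
      (fun i => Ideal.mem_map_of_mem _ (main_le_colon I l (hfI _)))
  have hB : ∀ e, HF (I.map σ.s) e = HF (I ⊔ Ideal.span {l}) e := fun e => HF_map_sub σ I e
  have hl'C : l' ∈ colonI I l := by
    rw [mem_colonI]
    exact hll
  have hC : ∀ e, HF ((colonI I l).map τ.s) e = HF (colonI I l) e := fun e => by
    rw [HF_map_sub τ (colonI I l) e]
    congr 1
    rw [sup_eq_left, Ideal.span_le, Set.singleton_subset_iff]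
    exact hl'C
  have hCle : ∀ e, HF (colonI I l) e ≤ HF (I ⊔ Ideal.span {l'}) e := fun e => by
    refine HF_anti ?_ e
    refine sup_le (main_le_colon I l) ?_
    rw [Ideal.span_le, Set.singleton_subset_iff]
    exact hl'C
  cases d with
  | zero =>
    have h1 := hGB 0
    rw [hB 0, hB (0 + 1), HF_deg_zero hI hl] at h1
    have h2 : HF (colonI I l) 0 ≤ HF I 0 := HF_anti (main_le_colon I l) 0
    have h3 := kk_step0 n _ _ _ h1 h2
    rwa [← HF_exact hI hl 0] at h3
  | succ d =>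
    have h1 := hGB (d + 1)
    rw [hB (d + 1), hB (d + 1 + 1)] at h1
    have h2 := hGC d
    rw [hC d, hC (d + 1)] at h2
    have h3 := kk_step n d _ _ _ _ h1 h2 ((hCle (d + 1)).trans hsw)
    rwa [← HF_exact hI hl d, ← HF_exact hI hl (d + 1)] at h3

theorem growR [IsAlgClosed K] (n : ℕ) : GrowR K n := by
  induction n with
  | zero =>
    intro f hf hr hs I hI hfI d
    exact growP4 0 (by norm_num) I hI (primI_of_regSeq f hf hr hfI) d
  | succ n IH =>
    intro f hf hr hs I hI hfI d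
    by_cases hn : n + 1 ≤ 4
    · exact growP4 (n + 1) hn I hI (primI_of_regSeq f hf hr hfI) d
    by_cases hn5 : n = 4
    · subst hn5
      exact grow5 f hf hr I hI hfI d
    obtain ⟨l, l', hl, hl', hq⟩ := hs (Fin.last n) (by rw [Fin.val_last]; omega)
    have hne : f (Fin.last n) ≠ 0 := (li_of_prim f hf (prim_of_regSeq f hf hr)).ne_zero _
    rw [hq] at hne
    have h0 := left_ne_zero_of_mul hne
    have h0' := right_ne_zero_of_mul hne
    obtain ⟨hr1, hr2⟩ := (regSeq_succ f).1 hr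
    rw [hq] at hr2
    have hll : l * l' ∈ I := by
      rw [← hq]
      exact hfI _
    rcases le_total (HF (I ⊔ Ideal.span {l'}) d) (HF (I ⊔ Ideal.span {l}) d) with h | h
    · exact main5_aux IH hf hr1 (fun i hi => hs _ (by simpa using hi)) hl hl' h0 h0' (regMod_left hr2)
        (regMod_right hr2) hI hfI hll d h
    · exact main5_aux IH hf hr1 (fun i hi => hs _ (by simpa using hi)) hl' hl h0' h0 (regMod_right hr2)
        (regMod_left hr2) hI hfI (by rwa [mul_comm]) d h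

/-- the statement of the second induction (N variables). -/
def IndR (K : Type*) [Field K] (c N : ℕ) (hcN : c ≤ N) : Prop :=
  ∀ (f : Fin c → MvPolynomial (Fin N) K), (∀ i, (f i).IsHomogeneous 2) → IsRegSeqG f →
    (∀ i, 5 ≤ i.val → Splits2 (f i)) →
    ∃ Φ : Ideal (MvPolynomial (Fin N) K) → Set (Fin N →₀ ℕ),
      ∀ I, IsHomog I → (∀ i, f i ∈ I) →
        Up (Φ I) ∧ (∀ i : Fin c, Finsupp.single (Fin.castLE hcN i) 2 ∈ Φ I) ∧ (∀ d, cnt (Φ I) d = HF I d) ∧
        ∀ I', IsHomog I' → I ≤ I' → Φ I ⊆ Φ I'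

theorem indR_zero (K : Type*) [Field K] [IsAlgClosed K] (c : ℕ) : IndR K c c le_rfl := by
  intro f hf hr hs
  obtain ⟨Ψ, hΨ⟩ := exists_canonical c
  have hg : ∀ I : Ideal (MvPolynomial (Fin c) K), IsHomog I → (∀ i, f i ∈ I) →
      ∀ d, G c d (HF I d) (HF I (d + 1)) := growR c f hf hr hs
  refine ⟨fun I => Ψ (fun d => HF I d), fun I hI hfI => ?_⟩
  obtain ⟨h1, h2, h3, h4⟩ := hΨ (fun d => HF I d) (hg I hI hfI)
  exact ⟨h1, h2, h3, fun I' hI' hle => h4 _ (hg I' hI' fun i => hle (hfI i)) fun d => HF_anti hle d⟩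

theorem indR_step (K : Type*) [Field K] [IsAlgClosed K] (c N : ℕ) (hcN : c ≤ N) (IH : IndR K c N hcN) :
    IndR K c (N + 1) (Nat.le_succ_of_le hcN) := by
  intro f hf hr hs
  obtain ⟨l, hl, hl0, hrl⟩ := exists_linear_reg (N := N) (Ideal.span (Set.range f))
    (fun u hu => soc_all f hf hr (Nat.lt_succ_of_le hcN) u hu)
  obtain ⟨σ⟩ := exists_sub l hl hl0
  obtain ⟨Φ, hΦ⟩ := IH (fun i => σ.s (f i)) (fun i => σ.hs _ _ (hf i)) (regSeq_restrict hf hr hl hrl σ)
    (fun i hi => by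
      obtain ⟨a, b, ha, hb, hab⟩ := hs i hi
      exact ⟨σ.s a, σ.s b, σ.hs _ _ ha, σ.hs _ _ hb, by rw [hab, map_mul]⟩)
  refine ⟨fun I => stack (fun j => Φ ((colN I l j).map σ.s)), fun I hI hfI => ?_⟩
  have hh : ∀ I : Ideal (MvPolynomial (Fin (N + 1)) K), IsHomog I → ∀ j, IsHomog ((colN I l j).map σ.s) :=
    fun I hI j => homog_map_sub σ (colN_homog hI hl j)
  have hle0 : ∀ j, I ≤ colN I l j := fun j => by
    induction j with
    | zero => exact le_rfl
    | succ j ih => exact ih.trans (colN_le_succ I l j)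
  have hmem : ∀ j i, σ.s (f i) ∈ (colN I l j).map σ.s := fun j i =>
    Ideal.mem_map_of_mem _ (hle0 j (hfI i))
  refine ⟨stack_up _ (fun j => (hΦ _ (hh I hI j) (hmem j)).1) (fun j => ?_), fun i => ?_, fun d => ?_, ?_⟩
  · exact (hΦ _ (hh I hI j) (hmem j)).2.2.2 _ (hh I hI (j + 1)) (Ideal.map_mono (colN_le_succ I l j))
  · exact stack_sq _ (Fin.castLE hcN i) ((hΦ _ (hh I hI 0) (hmem 0)).2.1 i)
  · rw [stack_cnt, HF_filtration hI hl d]
    refine Finset.sum_congr rfl fun j _ => ?_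
    rw [(hΦ _ (hh I hI j) (hmem j)).2.2.1, HF_map_sub]
  · intro I' hI' hle
    refine stack_mono _ _ fun j => ?_
    exact (hΦ _ (hh I hI j) (hmem j)).2.2.2 _ (hh I' hI' j) (Ideal.map_mono (colN_mono hle l j))

theorem indR_phi (K : Type*) [Field K] [IsAlgClosed K] (c m : ℕ) :
    IndR K c (c + m) (Nat.le_add_right c m) := by
  induction m with
  | zero => exact indR_zero K c
  | succ m IH => exact indR_step K c (c + m) (Nat.le_add_right c m) IH

theorem final_five {K : Type*} [Field K] (L : Type*) [Field L] [Algebra K L] (c N : ℕ) (hcN : c ≤ N)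
    (f : Fin c → MvPolynomial (Fin N) K) (hf : ∀ i, (f i).IsHomogeneous 2) (hr : IsRegSeqG f)
    (s : Finset (Fin c)) (hs : s.card ≤ 5)
    (hsplit : ∀ i, i ∉ s → Splits2 (MvPolynomial.map (algebraMap K L) (f i)))
    (I : Ideal (MvPolynomial (Fin N) K)) (hI : IsHomog I) (hfI : ∀ i, f i ∈ I) :
    ∃ J : Ideal (MvPolynomial (Fin N) K), IsMonomialIdeal J ∧ (∀ i : Fin c, X (Fin.castLE hcN i) ^ 2 ∈ J) ∧
      ∀ d, HF J d = HF I d := by
  obtain ⟨m, rfl⟩ := Nat.exists_eq_add_of_le hcN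
  obtain ⟨e, he⟩ := perm_of_card5 s hs
  have hmap : (algebraMap L (AlgebraicClosure L)).comp (algebraMap K L) = algebraMap K (AlgebraicClosure L) :=
    (IsScalarTower.algebraMap_eq K L (AlgebraicClosure L)).symm
  have hr' := regSeq_perm _ (fun i => (hf i).map _) (regSeq_baseChange (AlgebraicClosure L) hr) e
  obtain ⟨Φ, hΦ⟩ := indR_phi (AlgebraicClosure L) c m _ (fun i => (hf (e i)).map _) hr' (fun i hi => by
      have h1 := splits2_map (algebraMap L (AlgebraicClosure L)) (hsplit (e i) (he i hi))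
      rwa [MvPolynomial.map_map, hmap] at h1)
  obtain ⟨h1, h2, h3, -⟩ := hΦ _ (homog_baseChange (AlgebraicClosure L) hI)
    (fun i => Ideal.mem_map_of_mem _ (hfI (e i)))
  refine ⟨Ideal.span ((fun s => monomial s (1 : K)) ''
    (Φ (I.map (MvPolynomial.map (algebraMap K (AlgebraicClosure L)))))), ⟨_, rfl⟩, fun i => ?_, fun d => ?_⟩
  · rw [X_pow_eq_monomial]
    exact Ideal.subset_span ⟨_, h2 i, rfl⟩
  · rw [HF_span_up K _ h1 d, h3 d, HF_baseChange (AlgebraicClosure L) hI d]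

end Vale.Agent.P200E
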