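import Vale.Agent.P200H.Defs
import Vale.Agent.P200E.KK

/-! Modules HN1 (G_mono, G_zero, G_one_le, G_two_zero, G_one_full) and HN2 (G5_list).
G_one_le: every pair in F is contained in the union of its shadow (at most a points), so b <= C(a,2).
G_two_zero: a 3-set has three 2-subsets.  HN2: exhibit the families in Fin 5 (decide, or via the definition with explicit finsets). -/

namespace Vale.Agent.P200E

theorem G_mono {n d a a' b b' : ℕ} (h : G n d a b) (ha : a ≤ a') (ha' : a' ≤ n.choose d) (hb : b' ≤ b) :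
    G n d a' b' := by
  obtain ⟨_, F, h1, h2, h3⟩ := h
  obtain ⟨F', hsub, hcard⟩ := Finset.exists_subset_card_eq (show b' ≤ F.card by rw [h2]; exact hb)
  exact ⟨ha', F', fun x hx => h1 (Finset.mem_coe.2 (hsub (Finset.mem_coe.1 hx))), hcard,
    (Finset.card_le_card (Finset.shadow_mono hsub)).trans (h3.trans ha)⟩

theorem G_zero {n d a : ℕ} (ha : a ≤ n.choose d) : G n d a 0 :=
  ⟨ha, ∅, fun x hx => absurd hx (by simp), rfl, by simp⟩

theorem G_one_le {n a b : ℕ} (h : G n 1 a b) : b ≤ a.choose 2 := by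
  classical
  obtain ⟨_, F, h1, h2, h3⟩ := h
  set P : Finset (Fin n) := Finset.univ.filter fun x => ({x} : Finset (Fin n)) ∈ F.shadow with hP
  have hPc : P.card ≤ a := by
    refine le_trans ?_ h3
    refine Finset.card_le_card_of_injOn (fun x => ({x} : Finset (Fin n))) (fun x hx => ?_) ?_
    · exact (Finset.mem_filter.1 hx).2
    · intro x _ y _ hxy
      exact Finset.singleton_injective hxy
  have hsub : F ⊆ Finset.powersetCard 2 P := by
    intro s hs
    have hs2 : s.card = 2 := h1 (Finset.mem_coe.2 hs)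
    refine Finset.mem_powersetCard.2 ⟨fun x hx => ?_, hs2⟩
    obtain ⟨y, hy⟩ : ∃ y, s.erase x = {y} := by
      rw [← Finset.card_eq_one, Finset.card_erase_of_mem hx, hs2]
    have hys : y ∈ s.erase x := by
      rw [hy]
      exact Finset.mem_singleton_self y
    have hyx : y ≠ x := (Finset.mem_erase.1 hys).1
    have hys' : y ∈ s := (Finset.mem_erase.1 hys).2
    have hsx : s.erase y = {x} := by
      obtain ⟨z, hz⟩ : ∃ z, s.erase y = {z} := by
        rw [← Finset.card_eq_one, Finset.card_erase_of_mem hys', hs2]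
      have hxz : x ∈ s.erase y := Finset.mem_erase.2 ⟨hyx.symm, hx⟩
      rw [hz, Finset.mem_singleton] at hxz
      rw [hz, hxz]
    refine Finset.mem_filter.2 ⟨Finset.mem_univ x, ?_⟩
    rw [← hsx]
    exact Finset.erase_mem_shadow hs hys'
  rw [← h2]
  refine (Finset.card_le_card hsub).trans ?_
  rw [Finset.card_powersetCard]
  exact Nat.choose_le_choose 2 hPc

theorem G_two_zero {n a b : ℕ} (h : G n 2 a b) (ha : a ≤ 1) : b = 0 := by
  classical
  obtain ⟨_, F, h1, h2, h3⟩ := h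
  by_contra hb
  have hne : F.Nonempty := by
    rw [← Finset.card_pos, h2]
    omega
  obtain ⟨s, hs⟩ := hne
  have hs3 : s.card = 3 := h1 (Finset.mem_coe.2 hs)
  have hle : s.card ≤ F.shadow.card := by
    refine Finset.card_le_card_of_injOn (fun x => s.erase x) (fun x hx => ?_) ?_
    · exact Finset.erase_mem_shadow hs hx
    · intro x hx y hy hxy
      exact (Finset.erase_injOn s) hx hy hxy
  omega

theorem HN2_mk {n d a b : ℕ} (F : Finset (Finset (Fin n))) (ha : a ≤ n.choose d)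
    (h1 : ∀ s ∈ F, s.card = d + 1) (h2 : F.card = b) (h3 : F.shadow.card ≤ a) : G n d a b :=
  ⟨ha, F, fun s hs => h1 s (Finset.mem_coe.1 hs), h2, h3⟩

theorem G5_list : G 5 0 1 5 ∧ G 5 1 5 10 ∧ G 5 2 10 10 ∧ G 5 2 9 7 ∧ G 5 3 10 5 ∧ G 5 3 9 3 ∧ G 5 3 7 2 ∧
    G 5 3 4 1 ∧ G 5 4 5 1 := by
  refine ⟨?_, ?_, ?_, ?_, ?_, ?_, ?_, ?_, ?_⟩
  · exact HN2_mk {{0}, {1}, {2}, {3}, {4}} (by decide) (by decide +kernel) (by decide +kernel)
      (by decide +kernel)
  · exact HN2_mk {{0, 1}, {0, 2}, {0, 3}, {0, 4}, {1, 2}, {1, 3}, {1, 4}, {2, 3}, {2, 4}, {3, 4}}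
      (by decide) (by decide +kernel) (by decide +kernel) (by decide +kernel)
  · exact HN2_mk {{0, 1, 2}, {0, 1, 3}, {0, 1, 4}, {0, 2, 3}, {0, 2, 4}, {0, 3, 4}, {1, 2, 3},
      {1, 2, 4}, {1, 3, 4}, {2, 3, 4}}
      (by decide) (by decide +kernel) (by decide +kernel) (by decide +kernel)
  · exact HN2_mk {{0, 1, 2}, {0, 1, 3}, {0, 1, 4}, {0, 2, 3}, {0, 2, 4}, {1, 2, 3}, {1, 2, 4}}
      (by decide) (by decide +kernel) (by decide +kernel) (by decide +kernel)
  · exact HN2_mk {{0, 1, 2, 3}, {0, 1, 2, 4}, {0, 1, 3, 4}, {0, 2, 3, 4}, {1, 2, 3, 4}}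
      (by decide) (by decide +kernel) (by decide +kernel) (by decide +kernel)
  · exact HN2_mk {{0, 1, 2, 3}, {0, 1, 2, 4}, {0, 1, 3, 4}}
      (by decide) (by decide +kernel) (by decide +kernel) (by decide +kernel)
  · exact HN2_mk {{0, 1, 2, 3}, {0, 1, 2, 4}}
      (by decide) (by decide +kernel) (by decide +kernel) (by decide +kernel)
  · exact HN2_mk {{0, 1, 2, 3}}
      (by decide) (by decide +kernel) (by decide +kernel) (by decide +kernel)
  · exact HN2_mk {{0, 1, 2, 3, 4}}
      (by decide) (by decide +kernel) (by decide +kernel) (by decide +kernel)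

end Vale.Agent.P200E
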