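import Vale.Agent.P200H.Seq
import Vale.Agent.P200H.LinReg
import Vale.Agent.P200E.SubEx
import Vale.Agent.P200E.HFa

/-! Modules HSOC (soc), HSOC2 (soc_all, soc_iter).
HSOC: induction on c (N, f, d, u general).  c = 0: span of the empty range = 0, N > 0, X_i u = 0 gives u = 0.
c + 1: then N = N' + 1.  I' = span of f o castSucc, F = f last, RegMod I' F (regSeq_succ).  I' has no socle: if all X_i u in I' then F u in I' (F has degree 2)
so u in I'.  By exists_linear_reg take l nonzero linear with RegMod I' l, sigma : Sub l (exists_sub), fbar = sigma.s o f o castSucc regular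
(regSeq_restrict).  Let all X_i u in I' + (F), u homogeneous of degree d.  Then l u = i + F v; d = 0: comparing degree 1 components l u in I', so u in I'.
d >= 1: we may take v homogeneous of degree d - 1.  For each i: X_i u = i2 + F w; multiply by l: F (X_i v - l w) in I', so X_i v in I' + (l).
So all X_j sigma(v) are in (fbar) (X_j = sigma(t X_j), t X_j a linear combination of the X_i).  By induction for (c, N', d - 1): sigma(v) in (fbar), so v = i3 + l w',
l (u - F w') in I', so u - F w' in I'.
HSOC2: soc_all: apply soc to the homogeneous components (I = span of forms is homogeneous, components of X_i u are X_i times components).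
soc_iter: induction on e (p = X_i p' ...): if e+1: for each i, X_i u is in the span by induction for (e, d+1), then soc with d < n. -/

namespace Vale.Agent.P200E

open MvPolynomial

attribute [local instance] MvPolynomial.gradedAlgebra in
theorem HSOC_homog {K : Type*} [Field K] {n m : ℕ} (f : Fin m → MvPolynomial (Fin n) K)
    (hf : ∀ i, (f i).IsHomogeneous 2) : IsHomog (Ideal.span (Set.range f)) := by
  have h : (Ideal.span (Set.range f)).IsHomogeneous (homogeneousSubmodule (Fin n) K) :=
    Ideal.homogeneous_span (homogeneousSubmodule (Fin n) K) (Set.range f) (by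
      rintro _ ⟨i, rfl⟩
      exact ⟨2, hf i⟩)
  intro p hp d
  exact (mem_iff_homogeneousComponent_mem h p).1 hp d

theorem HSOC_comp {K : Type*} [Field K] {n a : ℕ} {l : MvPolynomial (Fin n) K} (hl : l.IsHomogeneous a)
    (p : MvPolynomial (Fin n) K) (e : ℕ) :
    homogeneousComponent e (l * p) = if a ≤ e then l * homogeneousComponent (e - a) p else 0 := by
  have h : ∀ i, homogeneousComponent e (l * homogeneousComponent i p) =
      if a + i = e then l * homogeneousComponent i p else 0 := by
    intro i
    have h1 : (l * homogeneousComponent i p).IsHomogeneous (a + i) :=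
      hl.mul (homogeneousComponent_isHomogeneous i p)
    rw [homogeneousComponent_of_mem (n := a + i) (by rwa [mem_homogeneousSubmodule])]
    by_cases hid : a + i = e
    · rw [if_pos hid.symm, if_pos hid]
    · rw [if_neg (Ne.symm hid), if_neg hid]
  conv_lhs => rw [← sum_homogeneousComponent p, Finset.mul_sum, map_sum]
  simp only [h]
  by_cases hae : a ≤ e
  · rw [if_pos hae]
    have e1 : ∀ i, (if a + i = e then l * homogeneousComponent i p else 0) =
        if i = e - a then l * homogeneousComponent (e - a) p else 0 := by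
      intro i
      by_cases hi : i = e - a
      · subst hi
        rw [if_pos (by omega), if_pos rfl]
      · rw [if_neg (by omega), if_neg hi]
    simp only [e1]
    rw [Finset.sum_ite_eq']
    split_ifs with hd
    · rfl
    · rw [homogeneousComponent_eq_zero _ _ (by rw [Finset.mem_range] at hd; omega), mul_zero]
  · rw [if_neg hae]
    exact Finset.sum_eq_zero fun i _ => if_neg (by omega)

/-- an ideal containing all variables contains all forms of positive degree -/
theorem HSOC_pos {K : Type*} [Field K] {n e : ℕ} (A : Ideal (MvPolynomial (Fin n) K))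
    (hA : ∀ i, X i ∈ A) {p : MvPolynomial (Fin n) K} (hp : p.IsHomogeneous (e + 1)) : p ∈ A := by
  rw [p.as_sum]
  refine A.sum_mem fun m hm => ?_
  have h1 : m.degree = e + 1 := by
    by_contra hcon
    exact (mem_support_iff.1 hm) (hp.coeff_eq_zero hcon)
  obtain ⟨i, hi⟩ : ∃ i, m i ≠ 0 := by
    by_contra hcon
    push Not at hcon
    have : m = 0 := Finsupp.ext hcon
    rw [this] at h1
    simp at h1
  have h2 : (X i : MvPolynomial (Fin n) K) ∣ monomial m (coeff m p) := X_dvd_monomial.2 (Or.inr hi)
  exact A.mem_of_dvd h2 (hA i)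

/-- `{p | p * u ∈ I}` contains all forms of positive degree when it contains the variables -/
theorem HSOC_mul {K : Type*} [Field K] {n e : ℕ} (I : Ideal (MvPolynomial (Fin n) K))
    (u : MvPolynomial (Fin n) K) (hu : ∀ i, X i * u ∈ I) {p : MvPolynomial (Fin n) K}
    (hp : p.IsHomogeneous (e + 1)) : p * u ∈ I := by
  have h := HSOC_pos (colonI I u) (fun i => by
    rw [mem_colonI, mul_comm]
    exact hu i) hp
  rw [mem_colonI] at h
  rwa [mul_comm]

theorem HSOC_last {K : Type*} [Field K] {c N : ℕ} (f : Fin (c + 1) → MvPolynomial (Fin N) K)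
    (p : MvPolynomial (Fin N) K) : p ∈ Ideal.span (Set.range f) ↔
      ∃ i ∈ Ideal.span (Set.range fun i : Fin c => f i.castSucc), ∃ w, p = i + f (Fin.last c) * w := by
  have h1 : Set.range f = insert (f (Fin.last c)) (Set.range fun i : Fin c => f i.castSucc) := by
    ext x
    constructor
    · rintro ⟨i, rfl⟩
      rcases Fin.eq_castSucc_or_eq_last i with ⟨j, rfl⟩ | rfl
      · exact Or.inr ⟨j, rfl⟩
      · exact Or.inl rfl
    · rintro (rfl | ⟨j, rfl⟩)
      · exact ⟨_, rfl⟩
      · exact ⟨_, rfl⟩
  rw [h1, Ideal.mem_span_insert]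
  constructor
  · rintro ⟨a, z, hz, rfl⟩
    exact ⟨z, hz, a, by ring⟩
  · rintro ⟨i, hi, w, rfl⟩
    exact ⟨w, i, hi, by ring⟩

theorem soc {K : Type*} [Field K] [Infinite K] (c : ℕ) : ∀ (N : ℕ) (f : Fin c → MvPolynomial (Fin N) K),
    (∀ i, (f i).IsHomogeneous 2) → IsRegSeqG f → ∀ d, (c < N ∨ (c = N ∧ d < N)) →
    ∀ u : MvPolynomial (Fin N) K, u.IsHomogeneous d → (∀ i, X i * u ∈ Ideal.span (Set.range f)) →
      u ∈ Ideal.span (Set.range f) := by
  induction c with
  | zero =>
    intro N f hf hr d hd u hu hX
    have hN : 0 < N := by omega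
    have h1 := hX ⟨0, hN⟩
    rw [Set.range_eq_empty f, Ideal.span_empty, Ideal.mem_bot] at h1 ⊢
    rcases mul_eq_zero.1 h1 with h2 | h2
    · exact absurd h2 (X_ne_zero _)
    · exact h2
  | succ c ih =>
    intro N f hf hr d hd u hu hX
    obtain ⟨N, rfl⟩ : ∃ N', N = N' + 1 := ⟨N - 1, by omega⟩
    set f0 : Fin c → MvPolynomial (Fin (N + 1)) K := fun i => f i.castSucc with hf0
    set F := f (Fin.last c) with hF
    have hf0h : ∀ i, (f0 i).IsHomogeneous 2 := fun i => hf _
    have hFh : F.IsHomogeneous 2 := hf _
    obtain ⟨hr0, hrF⟩ := (regSeq_succ f).1 hr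
    set I' := Ideal.span (Set.range f0) with hI'
    have hI'h : IsHomog I' := HSOC_homog f0 hf0h
    have hsoc : ∀ v, (∀ i, X i * v ∈ I') → v ∈ I' := fun v hv =>
      hrF v (HSOC_mul (e := 1) I' v hv hFh)
    obtain ⟨l, hl, hl0, hlreg⟩ := exists_linear_reg I' hsoc
    obtain ⟨σ⟩ := exists_sub l hl hl0
    have hrb := regSeq_restrict hf0h hr0 hl hlreg σ
    have hlu : l * u ∈ Ideal.span (Set.range f) := HSOC_mul (e := 0) _ u hX hl
    obtain ⟨i1, hi1, v, hv⟩ := (HSOC_last f _).1 hlu
    rcases Nat.eq_zero_or_pos d with hd0 | hdpos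
    · -- degree zero
      subst hd0
      have h1 : (l * u).IsHomogeneous (1 + 0) := hl.mul hu
      have h2 : homogeneousComponent 1 (l * u) = l * u := by
        rw [homogeneousComponent_of_mem (n := 1) (by rwa [mem_homogeneousSubmodule]), if_pos rfl]
      have h3 : homogeneousComponent 1 (F * v) = 0 := by
        rw [HSOC_comp hFh, if_neg (by omega)]
      have h4 : l * u ∈ I' := by
        rw [← h2, hv, map_add, h3, add_zero]
        exact hI'h i1 hi1 1
      exact (HSOC_last f _).2 ⟨u, hlreg u h4, 0, by ring⟩
    · obtain ⟨e, rfl⟩ : ∃ e, d = e + 1 := ⟨d - 1, by omega⟩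
      -- homogeneous v
      obtain ⟨j1, hj1, v', hv'h, hv'⟩ : ∃ j1 ∈ I', ∃ v' : MvPolynomial (Fin (N + 1)) K,
          v'.IsHomogeneous e ∧ l * u = j1 + F * v' := by
        have h1 : (l * u).IsHomogeneous (1 + (e + 1)) := hl.mul hu
        have h2 : homogeneousComponent (1 + (e + 1)) (l * u) = l * u := by
          rw [homogeneousComponent_of_mem (n := 1 + (e + 1)) (by rwa [mem_homogeneousSubmodule]),
            if_pos rfl]
        refine ⟨homogeneousComponent (1 + (e + 1)) i1, hI'h i1 hi1 _, homogeneousComponent e v,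
          homogeneousComponent_isHomogeneous _ _, ?_⟩
        have h3 : homogeneousComponent (1 + (e + 1)) (F * v) = F * homogeneousComponent e v := by
          have e0 : 1 + (e + 1) - 2 = e := by omega
          rw [HSOC_comp hFh, if_pos (by omega), e0]
        rw [← h3, ← map_add, ← hv, h2]
      -- X_i v' in I' + (l)
      have h5 : ∀ i, ∃ w, X i * v' - l * w ∈ I' := by
        intro i
        obtain ⟨i2, hi2, w, hw⟩ := (HSOC_last f _).1 (hX i)
        refine ⟨w, hrF _ ?_⟩
        have e1 : F * (X i * v' - l * w) = l * i2 - X i * j1 := by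
          have e2 : X i * (l * u) = l * (X i * u) := by ring
          rw [hv', hw] at e2
          linear_combination e2
        rw [← hF] 
        rw [e1]
        exact I'.sub_mem (I'.mul_mem_left _ hi2) (I'.mul_mem_left _ hj1)
      set fb : Fin c → MvPolynomial (Fin N) K := fun i => σ.s (f0 i) with hfb
      have hmap : ∀ p ∈ I', σ.s p ∈ Ideal.span (Set.range fb) := by
        intro p hp
        have h6 : I' ≤ (Ideal.span (Set.range fb)).comap σ.s := by
          rw [hI', Ideal.span_le]
          rintro _ ⟨i, rfl⟩
          exact Ideal.subset_span ⟨i, rfl⟩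
        exact h6 hp
      have hsl : σ.s l = 0 := (σ.ker l).2 (Ideal.subset_span rfl)
      have h7 : ∀ i, σ.s (X i) * σ.s v' ∈ Ideal.span (Set.range fb) := by
        intro i
        obtain ⟨w, hw⟩ := h5 i
        have := hmap _ hw
        rwa [map_sub, map_mul, map_mul, hsl, zero_mul, sub_zero] at this
      have h8 : ∀ j : Fin N, X j * σ.s v' ∈ Ideal.span (Set.range fb) := by
        intro j
        have h9 := HSOC_pos (e := 0) ((colonI (Ideal.span (Set.range fb)) (σ.s v')).comap σ.s)
          (fun i => by
            rw [Ideal.mem_comap, mem_colonI, mul_comm]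
            exact h7 i) (σ.ht (X j) 1 (isHomogeneous_X K j))
        rw [Ideal.mem_comap, σ.st, mem_colonI] at h9
        rwa [mul_comm]
      have h10 : σ.s v' ∈ Ideal.span (Set.range fb) :=
        ih N fb (fun i => σ.hs _ _ (hf0h i)) hrb e (by omega) _ (σ.hs _ _ hv'h) h8
      -- lift
      have hlift : ∀ q ∈ Ideal.span (Set.range fb), ∃ i3 ∈ I', σ.s i3 = q := by
        intro q hq
        have h11 : Ideal.span (Set.range fb) = I'.map σ.s := by
          rw [hI', Ideal.map_span]
          congr 1
          ext x
          simp [hfb]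
        rw [h11] at hq
        exact (Ideal.mem_map_iff_of_surjective σ.s (fun q => ⟨σ.t q, σ.st q⟩)).1 hq
      obtain ⟨i3, hi3, hi3'⟩ := hlift _ h10
      have h12 : v' - i3 ∈ Ideal.span {l} := by
        rw [← σ.ker, map_sub, hi3', sub_self]
      obtain ⟨w', hw'⟩ := Ideal.mem_span_singleton'.1 h12
      have h13 : l * (u - F * w') ∈ I' := by
        have e3 : l * (u - F * w') = j1 + F * i3 := by
          have e4 : v' = i3 + w' * l := by rw [hw']; ring
          rw [e4] at hv'
          linear_combination hv'
        rw [e3]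
        exact I'.add_mem hj1 (I'.mul_mem_left _ hi3)
      exact (HSOC_last f _).2 ⟨u - F * w', hlreg _ h13, w', by ring⟩

theorem HSOC2_comp0 {K : Type*} [Field K] {N : ℕ} (i : Fin N) (x : MvPolynomial (Fin N) K) :
    homogeneousComponent 0 (X i * x) = 0 := by
  classical
  ext s
  rw [coeff_homogeneousComponent, coeff_X_mul']
  by_cases hi : i ∈ s.support
  · have : s.degree ≠ 0 := by
      intro h
      rw [Finsupp.degree_eq_zero_iff] at h
      subst h
      simp at hi
    simp [this]
  · simp [hi]

theorem HSOC2_mul {K : Type*} [Field K] {N : ℕ} (J : Ideal (MvPolynomial (Fin N) K))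
    (c : MvPolynomial (Fin N) K) :
    ∀ x : MvPolynomial (Fin N) K, (∀ d, homogeneousComponent d x ∈ J) →
      ∀ d, homogeneousComponent d (c * x) ∈ J := by
  induction c using MvPolynomial.induction_on with
  | C r =>
    intro x hx d
    rw [homogeneousComponent_C_mul]
    exact J.mul_mem_left _ (hx d)
  | add p q hp hq =>
    intro x hx d
    rw [add_mul, map_add]
    exact J.add_mem (hp x hx d) (hq x hx d)
  | mul_X p i hp =>
    intro x hx d
    rw [mul_assoc]
    refine hp _ ?_ d
    intro e
    cases e with
    | zero =>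
      rw [HSOC2_comp0]
      exact J.zero_mem
    | succ e =>
      rw [HFA1_comp_mul (isHomogeneous_X K i)]
      exact J.mul_mem_left _ (hx e)

theorem HSOC2_homog {K : Type*} [Field K] {c N : ℕ} (f : Fin c → MvPolynomial (Fin N) K)
    (hf : ∀ i, (f i).IsHomogeneous 2) : IsHomog (Ideal.span (Set.range f)) := by
  intro p hp
  induction hp using Submodule.span_induction with
  | mem x hx =>
    obtain ⟨i, rfl⟩ := hx
    intro d
    rw [homogeneousComponent_of_mem (n := 2) (by rw [mem_homogeneousSubmodule]; exact hf i)]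
    split_ifs
    · exact Ideal.subset_span ⟨i, rfl⟩
    · exact Ideal.zero_mem _
  | zero =>
    intro d
    rw [map_zero]
    exact Ideal.zero_mem _
  | add x y _ _ hx hy =>
    intro d
    rw [map_add]
    exact Ideal.add_mem _ (hx d) (hy d)
  | smul a x _ hx =>
    intro d
    rw [smul_eq_mul]
    exact HSOC2_mul _ a x hx d

theorem soc_all {K : Type*} [Field K] [Infinite K] {c N : ℕ} (f : Fin c → MvPolynomial (Fin N) K)
    (hf : ∀ i, (f i).IsHomogeneous 2) (hr : IsRegSeqG f) (hcN : c < N) (u : MvPolynomial (Fin N) K)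
    (hu : ∀ i, X i * u ∈ Ideal.span (Set.range f)) : u ∈ Ideal.span (Set.range f) := by
  rw [← sum_homogeneousComponent u]
  refine Ideal.sum_mem _ fun d _ => ?_
  refine soc c N f hf hr d (Or.inl hcN) _ (homogeneousComponent_isHomogeneous d u) ?_
  intro i
  rw [← HFA1_comp_mul (isHomogeneous_X K i)]
  exact HSOC2_homog f hf _ (hu i) _

theorem soc_iter {K : Type*} [Field K] [Infinite K] {n : ℕ} (f : Fin n → MvPolynomial (Fin n) K)
    (hf : ∀ i, (f i).IsHomogeneous 2) (hr : IsRegSeqG f) (e : ℕ) : ∀ (d : ℕ), d + e ≤ n →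
    ∀ u : MvPolynomial (Fin n) K, u.IsHomogeneous d →
      (∀ p : MvPolynomial (Fin n) K, p.IsHomogeneous e → p * u ∈ Ideal.span (Set.range f)) →
      u ∈ Ideal.span (Set.range f) := by
  induction e with
  | zero =>
    intro d _ u _ h
    have h1 := h 1 (isHomogeneous_one _ _)
    rwa [one_mul] at h1
  | succ e ih =>
    intro d hd u hu h
    refine soc n n f hf hr d (Or.inr ⟨rfl, by omega⟩) u hu ?_
    intro i
    refine ih (1 + d) (by omega) (X i * u) ((isHomogeneous_X K i).mul hu) ?_
    intro p hp
    rw [← mul_assoc]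
    exact h _ (hp.mul (isHomogeneous_X K i))

end Vale.Agent.P200E
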