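import Vale.Agent.P200H.Step
import Vale.Agent.P200H.Soc
import Vale.Agent.P200H.CI
import Vale.Agent.P200H.Num

/-! Modules HNINE (nine), HTOP (top5).
HNINE: HF I 2 < 10 = HF (f) 2 gives a quadric g in I, not in (f) (HF_lt_exists).  HF I 3 <= HF ((f)+(g)) 3 = HF (f) 3 - HF C 1 = 10 - HF C 1 (HF_exact2, d = 1),
C = colonI (f) g.  If HF C 1 <= 2 then C contains a nonzero linear form l (HF C 1 < 5 = HF bot 1), l * l in C, so stepP (n = 4, growP4) applies to C
(PrimI C since f_i in C): G 5 1 (HF C 1) (HF C 2) gives HF C 2 <= C(2,2) = 1 (G_one_le), G 5 2 gives HF C 3 = 0 (G_two_zero), so all cubics are in C,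
so p g in (f) for all cubics p, so g in (f) by soc_iter (e = 3, d = 2): contradiction.
HTOP: HF I 4 < 5 = HF (f) 4 gives u in I of degree 4, not in (f); by soc some X_i u is not in (f), of degree 5, in I, so HF I 5 < HF (f) 5 = 1. -/

namespace Vale.Agent.P200E

open MvPolynomial

variable {K : Type*} [Field K]

theorem nine [IsAlgClosed K] (f : Fin 5 → MvPolynomial (Fin 5) K) (hf : ∀ i, (f i).IsHomogeneous 2)
    (hr : IsRegSeqG f) (I : Ideal (MvPolynomial (Fin 5) K)) (hI : IsHomog I) (hfI : ∀ i, f i ∈ I) (h9 : HF I 2 ≤ 9) :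
    HF I 3 ≤ 7 := by
  have : Infinite K := IsAlgClosed.instInfinite
  obtain ⟨c0, c1, c2, c3, c4, c5, c6⟩ := HF_CI5 f hf hr
  obtain ⟨F, hF⟩ : ∃ F, F = Ideal.span (Set.range f) := ⟨_, rfl⟩
  rw [← hF] at c0 c1 c2 c3 c4 c5 c6
  have hFI : F ≤ I := by
    rw [hF, Ideal.span_le]
    rintro _ ⟨i, rfl⟩
    exact hfI i
  have hFh : IsHomog F := by
    rw [hF]
    exact homog_span f hf
  obtain ⟨g, hg, hgI, hgF⟩ := HF_lt_exists hFI (d := 2) (by omega)
  have hC : IsHomog (colonI F g) := homog_colon2 hFh hg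
  have h1 : HF I 3 ≤ HF (F ⊔ Ideal.span {g}) 3 := by
    refine HF_anti (sup_le hFI ?_) 3
    rw [Ideal.span_le, Set.singleton_subset_iff]
    exact hgI
  have h2 : HF F 3 = HF (F ⊔ Ideal.span {g}) 3 + HF (colonI F g) 1 := HF_exact2 hFh hg 1
  by_contra hcon
  have h3 : HF (colonI F g) 1 ≤ 2 := by omega
  have h4 : HF (⊥ : Ideal (MvPolynomial (Fin (4 + 1)) K)) 1 = (1 + 4).choose 4 := HF_bot K 4 1
  have h5 : (1 + 4).choose 4 = 5 := rfl
  obtain ⟨l, hl, hlC, hl0⟩ := HF_lt_exists (I := (⊥ : Ideal (MvPolynomial (Fin 5) K)))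
    (J := colonI F g) bot_le (d := 1) (by
      have h6 : HF (⊥ : Ideal (MvPolynomial (Fin 5) K)) 1 = 5 := h4.trans h5
      omega)
  have hl0' : l ≠ 0 := fun h => hl0 (by rw [h]; exact Ideal.zero_mem _)
  have hP : PrimI (colonI F g) := by
    refine primI_of_regSeq f hf hr fun i => ?_
    rw [mem_colonI, hF]
    exact Ideal.mul_mem_left _ _ (Ideal.subset_span ⟨i, rfl⟩)
  have hll : l * l ∈ colonI F g := Ideal.mul_mem_left _ _ hlC
  have hs := fun d => stepP (K := K) (n := 4) (growP4 4 le_rfl) hC hP hl hl hl0' hl0' hll d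
  have h7 : HF (colonI F g) 2 ≤ 1 := by
    refine (G_one_le (hs 1)).trans ?_
    exact (Nat.choose_le_choose 2 h3).trans (le_of_eq rfl)
  have h8 : HF (colonI F g) 3 = 0 := G_two_zero (hs 2) h7
  rw [HF_eq_zero_iff] at h8
  apply hgF
  rw [hF]
  refine soc_iter f hf hr 3 2 (by norm_num) g hg fun p hp => ?_
  rw [← hF, mul_comm]
  exact h8 p hp

theorem top5 [Infinite K] (f : Fin 5 → MvPolynomial (Fin 5) K) (hf : ∀ i, (f i).IsHomogeneous 2)
    (hr : IsRegSeqG f) (I : Ideal (MvPolynomial (Fin 5) K)) (hI : IsHomog I) (hfI : ∀ i, f i ∈ I) (h4 : HF I 4 ≤ 4) :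
    HF I 5 = 0 := by
  obtain ⟨c0, c1, c2, c3, c4, c5, c6⟩ := HF_CI5 f hf hr
  obtain ⟨F, hF⟩ : ∃ F, F = Ideal.span (Set.range f) := ⟨_, rfl⟩
  rw [← hF] at c0 c1 c2 c3 c4 c5 c6
  have hFI : F ≤ I := by
    rw [hF, Ideal.span_le]
    rintro _ ⟨i, rfl⟩
    exact hfI i
  obtain ⟨u, hu, huI, huF⟩ := HF_lt_exists hFI (d := 4) (by omega)
  have h1 : ∃ i, X i * u ∉ F := by
    by_contra hcon
    push Not at hcon
    apply huF
    rw [hF]
    refine soc 5 5 f hf hr 4 (Or.inr ⟨rfl, by norm_num⟩) u hu fun i => ?_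
    rw [← hF]
    exact hcon i
  obtain ⟨i, hi⟩ := h1
  have h2 : (X i * u).IsHomogeneous 5 := (isHomogeneous_X K i).mul hu
  have h3 := HF_lt_of_mem hFI h2 (Ideal.mul_mem_left _ _ huI) hi
  omega


end Vale.Agent.P200E
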