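import Vale.Agent.P200H.Defs
import Vale.Agent.P200E.Few
import Vale.Agent.P200E.RegPrim
import Vale.Agent.P200E.HFa

/-! Modules HP1 (primI_mono, primI_map, primI_of_regSeq), HP2 (primI_HF2).
HP2: let V = quadrics in I (a subspace of the finite dimensional space of quadrics, dim n(n+1)/2).  If dim V < n, a spanning family
Fin m -> V, m < n, is Prim, contradicting few.  So dim V >= n and HF I 2 = n(n+1)/2 - dim V <= n(n-1)/2. (n = 0: HF_noVar.) -/

namespace Vale.Agent.P200E

open MvPolynomial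

variable {K : Type*} [Field K]

theorem primI_mono {n : ℕ} {I J : Ideal (MvPolynomial (Fin n) K)} (h : I ≤ J) (hp : PrimI I) : PrimI J := by
  obtain ⟨D, hD⟩ := hp
  refine ⟨D, fun p hp => ?_⟩
  refine Ideal.span_mono ?_ (hD p hp)
  rintro q ⟨h1, h2⟩
  exact ⟨h h1, h2⟩

theorem primI_map {n : ℕ} {l : MvPolynomial (Fin (n + 1)) K} (σ : Sub l) {I : Ideal (MvPolynomial (Fin (n + 1)) K)}
    (hp : PrimI I) : PrimI (I.map σ.s) := by
  obtain ⟨D, hD⟩ := hp
  refine ⟨D, fun p hp => ?_⟩
  have h1 := Ideal.mem_map_of_mem σ.s (hD (σ.t p) (σ.ht p D hp))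
  rw [σ.st, Ideal.map_span] at h1
  refine Ideal.span_mono ?_ h1
  rintro _ ⟨q, hq, rfl⟩
  exact ⟨Ideal.mem_map_of_mem σ.s hq.1, σ.hs q 2 hq.2⟩

theorem primI_of_regSeq {n : ℕ} (f : Fin n → MvPolynomial (Fin n) K) (hf : ∀ i, (f i).IsHomogeneous 2)
    (hr : IsRegSeqG f) {I : Ideal (MvPolynomial (Fin n) K)} (hfI : ∀ i, f i ∈ I) : PrimI I := by
  obtain ⟨D, hD⟩ := prim_of_regSeq f hf hr
  refine ⟨D, fun p hp => ?_⟩
  refine Ideal.span_mono ?_ (hD p hp)
  rintro _ ⟨i, rfl⟩
  exact ⟨hfI i, hf i⟩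

theorem HP2_dim (K : Type*) [Field K] (n : ℕ) :
    Module.finrank K (homogeneousSubmodule (Fin n) K 2) ≤ n.choose 2 + n := by
  classical
  set b : Sym2 (Fin n) → MvPolynomial (Fin n) K :=
    Sym2.lift ⟨fun i j => X i * X j, fun i j => mul_comm _ _⟩ with hb
  have h1 : homogeneousSubmodule (Fin n) K 2 ≤ Submodule.span K (Set.range b) := by
    rw [← homogeneousSubmodule_one_pow, homogeneousSubmodule_one_eq_span_X, pow_two,
      Submodule.span_mul_span]
    refine Submodule.span_mono ?_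
    rintro _ ⟨_, ⟨i, rfl⟩, _, ⟨j, rfl⟩, rfl⟩
    exact ⟨s(i, j), rfl⟩
  have hfin : FiniteDimensional K (Submodule.span K (Set.range b)) :=
    FiniteDimensional.span_of_finite K (Set.finite_range b)
  have h2 := Submodule.finrank_mono h1
  have h3 : Module.finrank K (Submodule.span K (Set.range b)) ≤ Fintype.card (Sym2 (Fin n)) :=
    finrank_range_le_card b
  have h4 : (n + 1).choose 2 = n + n.choose 2 := by
    rw [Nat.choose_succ_succ' n 1, Nat.choose_one_right]
  rw [Sym2.card, Fintype.card_fin] at h3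
  omega

theorem HP2_fr {V W : Type*} [AddCommGroup V] [Module K V] [AddCommGroup W] [Module K W]
    (f : V →ₗ[K] W) (U : Submodule K V) [FiniteDimensional K U] :
    Module.finrank K (U.map f) + Module.finrank K (U ⊓ LinearMap.ker f : Submodule K V) =
      Module.finrank K U := by
  have h := LinearMap.finrank_range_add_finrank_ker (f.domRestrict U)
  rw [LinearMap.range_domRestrict] at h
  have h2 : Module.finrank K (LinearMap.ker (f.domRestrict U)) =
      Module.finrank K (U ⊓ LinearMap.ker f : Submodule K V) := by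
    have e : (LinearMap.ker (f.domRestrict U)).map U.subtype = U ⊓ LinearMap.ker f := by
      ext x
      constructor
      · rintro ⟨y, hy, rfl⟩
        exact ⟨y.2, hy⟩
      · rintro ⟨h1, h2⟩
        exact ⟨⟨x, h1⟩, h2, rfl⟩
    rw [← e]
    exact (Submodule.equivMapOfInjective U.subtype U.injective_subtype _).finrank_eq
  rw [h2] at h
  exact h

theorem HP2_few {n : ℕ} (I : Ideal (MvPolynomial (Fin n) K)) (hp : PrimI I)
    (V : Submodule K (MvPolynomial (Fin n) K)) [FiniteDimensional K V]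
    (hV : ∀ q, q ∈ V ↔ q ∈ I ∧ q.IsHomogeneous 2) : n ≤ Module.finrank K V := by
  by_contra hlt
  rw [not_le] at hlt
  let b := Module.finBasis K V
  let f : Fin (Module.finrank K V) → MvPolynomial (Fin n) K := fun i => (b i : MvPolynomial (Fin n) K)
  refine few hlt f (fun i => ((hV _).1 (b i).2).2) ?_
  obtain ⟨D, hD⟩ := hp
  refine ⟨D, fun p hpD => ?_⟩
  refine (Ideal.span_le.2 ?_ : Ideal.span {q | q ∈ I ∧ q.IsHomogeneous 2} ≤
    Ideal.span (Set.range f)) (hD p hpD)
  intro q hq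
  have hqV : q ∈ V := (hV q).2 hq
  have h4 := b.sum_repr ⟨q, hqV⟩
  have h5 := congrArg (V.subtype) h4
  rw [map_sum] at h5
  have h6 : q = ∑ i, (b.repr ⟨q, hqV⟩ i) • f i := by
    refine Eq.trans (show q = V.subtype ⟨q, hqV⟩ from rfl) (h5.symm.trans ?_)
    exact Finset.sum_congr rfl fun i _ => rfl
  rw [h6]
  refine Ideal.sum_mem _ fun i _ => ?_
  rw [smul_eq_C_mul]
  exact Ideal.mul_mem_left _ _ (Ideal.subset_span ⟨i, rfl⟩)

theorem primI_HF2 {n : ℕ} (I : Ideal (MvPolynomial (Fin n) K)) (hp : PrimI I) : HF I 2 ≤ n.choose 2 := by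
  have hfin : FiniteDimensional K (homogeneousSubmodule (Fin n) K 2) :=
    Module.Finite.iff_fg.2 (homogeneousSubmodule_fg (Fin n) K 2)
  have h1 := HP2_fr (Ideal.Quotient.mkₐ K I).toLinearMap (homogeneousSubmodule (Fin n) K 2)
  have h2 := HP2_dim K n
  have hfin2 : FiniteDimensional K (homogeneousSubmodule (Fin n) K 2 ⊓
      LinearMap.ker (Ideal.Quotient.mkₐ K I).toLinearMap : Submodule K (MvPolynomial (Fin n) K)) :=
    Submodule.finiteDimensional_inf_left _ _
  have h3 := HP2_few I hp (homogeneousSubmodule (Fin n) K 2 ⊓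
      LinearMap.ker (Ideal.Quotient.mkₐ K I).toLinearMap) (fun q => by
    rw [Submodule.mem_inf, LinearMap.mem_ker, mem_homogeneousSubmodule, and_comm]
    exact and_congr_left fun _ => Ideal.Quotient.eq_zero_iff_mem)
  unfold HF
  omega

end Vale.Agent.P200E
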