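import Vale.Agent.P200H.Defs
import Vale.Agent.P200E.Bil
import Vale.Agent.P200E.HFa
import Vale.Agent.P200E.Red

/-! Module HRED: r = HF I 2 = dim of the image of the quadrics in S/I; let phi_1..phi_r be coordinates on that image; apply bil to
B_i(u,v) = phi_i(class of l_u l_v), l_u = sum u_j X_j (compare P200E/Red.lean, helper97). -/

namespace Vale.Agent.P200E

open MvPolynomial

theorem red_HF {K : Type*} [Field K] [IsAlgClosed K] (n : ℕ) (hn : 1 ≤ n) (I : Ideal (MvPolynomial (Fin n) K))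
    (h : HF I 2 ≤ 2 * (n - 1)) :
    ∃ l l' : MvPolynomial (Fin n) K, l.IsHomogeneous 1 ∧ l'.IsHomogeneous 1 ∧ l ≠ 0 ∧ l' ≠ 0 ∧ l * l' ∈ I := by
  classical
  let L : homogeneousSubmodule (Fin n) K 2 →ₗ[K]
      ((homogeneousSubmodule (Fin n) K 2).map (Ideal.Quotient.mkₐ K I).toLinearMap) :=
    (Ideal.Quotient.mkₐ K I).toLinearMap.submoduleMap (homogeneousSubmodule (Fin n) K 2)
  have hfin : FiniteDimensional K
      ((homogeneousSubmodule (Fin n) K 2).map (Ideal.Quotient.mkₐ K I).toLinearMap) :=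
    Module.Finite.of_surjective L (LinearMap.submoduleMap_surjective _ _)
  let b := Module.finBasis K
    ((homogeneousSubmodule (Fin n) K 2).map (Ideal.Quotient.mkₐ K I).toLinearMap)
  obtain ⟨u, v, hu, hv, hB⟩ := bil n _ hn h
    (fun i => (RED_m K n).compr₂ ((b.coord i).comp L))
  refine ⟨RED_lin K n u, RED_lin K n v, RED_lin_hom u, RED_lin_hom v, RED_lin_ne hu,
    RED_lin_ne hv, ?_⟩
  have h1 : L (RED_m K n u v) = 0 := by
    apply b.ext_elem
    intro i
    have := hB i
    simpa using this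
  have h2 : (Ideal.Quotient.mkₐ K I) (RED_lin K n u * RED_lin K n v) = 0 := by
    have h3 := congrArg Subtype.val h1
    exact h3
  rw [Ideal.Quotient.mkₐ_eq_mk, Ideal.Quotient.eq_zero_iff_mem] at h2
  exact h2

end Vale.Agent.P200E
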