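import Vale.Agent.P200H.PrimI
import Vale.Agent.P200H.RedH
import Vale.Agent.P200E.Main

/-! P200H: step for an ideal containing a product of linear forms (helper1). -/

namespace Vale.Agent.P200E

open MvPolynomial

variable {K : Type*} [Field K]

theorem stepP_aux {n : ℕ} (IH : GrowP K n) {I : Ideal (MvPolynomial (Fin (n + 1)) K)} (hI : IsHomog I) (hp : PrimI I)
    {l l' : MvPolynomial (Fin (n + 1)) K} (hl : l.IsHomogeneous 1) (hl' : l'.IsHomogeneous 1)
    (h0 : l ≠ 0) (h0' : l' ≠ 0) (hll : l * l' ∈ I) (d : ℕ)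
    (hsw : HF (I ⊔ Ideal.span {l'}) d ≤ HF (I ⊔ Ideal.span {l}) d) :
    G (n + 1) d (HF I d) (HF I (d + 1)) := by
  obtain ⟨σ⟩ := exists_sub l hl h0
  obtain ⟨τ⟩ := exists_sub l' hl' h0'
  have hGB : ∀ e, G n e (HF (I.map σ.s) e) (HF (I.map σ.s) (e + 1)) :=
    IH _ (homog_map_sub σ hI) (primI_map σ hp)
  have hGC : ∀ e, G n e (HF ((colonI I l).map τ.s) e) (HF ((colonI I l).map τ.s) (e + 1)) :=
    IH _ (homog_map_sub τ (homog_colon hI hl)) (primI_map τ (primI_mono (main_le_colon I l) hp))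
  have hB : ∀ e, HF (I.map σ.s) e = HF (I ⊔ Ideal.span {l}) e := fun e => HF_map_sub σ I e
  have hl'C : l' ∈ colonI I l := by
    rw [mem_colonI]
    exact hll
  have hC : ∀ e, HF ((colonI I l).map τ.s) e = HF (colonI I l) e := fun e => by
    rw [HF_map_sub τ (colonI I l) e]
    congr 1
    rw [sup_eq_left, Ideal.span_le, Set.singleton_subset_iff]
    exact hl'C
  have hCle : ∀ e, HF (colonI I l) e ≤ HF (I ⊔ Ideal.span {l'}) e := fun e => by
    refine HF_anti ?_ e
    refine sup_le (main_le_colon I l) ?_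
    rw [Ideal.span_le, Set.singleton_subset_iff]
    exact hl'C
  cases d with
  | zero =>
    have h1 := hGB 0
    rw [hB 0, hB (0 + 1), HF_deg_zero hI hl] at h1
    have h2 : HF (colonI I l) 0 ≤ HF I 0 := HF_anti (main_le_colon I l) 0
    have h3 := kk_step0 n _ _ _ h1 h2
    rwa [← HF_exact hI hl 0] at h3
  | succ d =>
    have h1 := hGB (d + 1)
    rw [hB (d + 1), hB (d + 1 + 1)] at h1
    have h2 := hGC d
    rw [hC d, hC (d + 1)] at h2
    have h3 := kk_step n d _ _ _ _ h1 h2 ((hCle (d + 1)).trans hsw)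
    rwa [← HF_exact hI hl d, ← HF_exact hI hl (d + 1)] at h3

theorem stepP {n : ℕ} (IH : GrowP K n) {I : Ideal (MvPolynomial (Fin (n + 1)) K)} (hI : IsHomog I) (hp : PrimI I)
    {l l' : MvPolynomial (Fin (n + 1)) K} (hl : l.IsHomogeneous 1) (hl' : l'.IsHomogeneous 1)
    (h0 : l ≠ 0) (h0' : l' ≠ 0) (hll : l * l' ∈ I) (d : ℕ) :
    G (n + 1) d (HF I d) (HF I (d + 1)) := by
  rcases le_total (HF (I ⊔ Ideal.span {l'}) d) (HF (I ⊔ Ideal.span {l}) d) with h | h
  · exact stepP_aux IH hI hp hl hl' h0 h0' hll d h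
  · exact stepP_aux IH hI hp hl' hl h0' h0 (by rwa [mul_comm]) d h

theorem growP4 [IsAlgClosed K] (n : ℕ) (hn : n ≤ 4) : GrowP K n := by
  induction n with
  | zero =>
    intro I hI _ d
    rw [HF_noVar I d]
    refine kk_base d _ ?_
    cases d with
    | zero => simpa using HF_zero_le I
    | succ d => rw [HF_noVar I d]; exact Nat.zero_le _
  | succ n IH =>
    intro I hI hp d
    have h2 := primI_HF2 I hp
    have hle : (n + 1).choose 2 ≤ 2 * (n + 1 - 1) := by
      have : n ≤ 3 := by omega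
      interval_cases n <;> decide
    obtain ⟨l, l', hl, hl', h0, h0', hll⟩ := red_HF (n + 1) (Nat.succ_le_succ (Nat.zero_le n)) I (h2.trans hle)
    exact stepP (IH (by omega)) hI hp hl hl' h0 h0' hll d

end Vale.Agent.P200E
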